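import Vale.Agent.P032.Net.Gen

/-!
# P032: the rhombus network with beta ends

Only clean ends are counted. `o z v = ± 1` is the orientation of the arc of `S(z)` at its clean end
`v` (`+ 1`: the arc is `v e^{-it}`, i.e. clockwise from `v`). At a centre with clean counts `(1,2)`
either the centre lies in the triangle of its three clean ends (`Tri`), or the single end lies
strictly between the two others (`NoTri`), with a chirality rule.
-/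

namespace Vale.Agent.P032.Net

/-- the scalar product -/
def dot (a b : ℂ) : ℝ := a.re * b.re + a.im * b.im

/-- the origin is in the open triangle of the three directions -/
def Tri (t k l : ℂ) : Prop := 0 < det t k * det k l ∧ 0 < det k l * det l t

/-- `t` is strictly between `k` and `l`, and (for `s = 1`) the angles from `t` to `k` and from `t`
to `l` are in `(0, 90) ∪ (180, 270)` -/
def NoTri (s : ℝ) (t k l : ℂ) : Prop :=
  0 < det k t * det t l ∧ 0 < det k t * det k l ∧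
    0 < s * (dot t k * det t k) ∧ 0 < s * (dot t l * det t l)

theorem det_neg_l (a b : ℂ) : det (-a) b = -det a b := by
  simp only [det, Complex.neg_re, Complex.neg_im]; ring

theorem det_neg_r (a b : ℂ) : det a (-b) = -det a b := by
  simp only [det, Complex.neg_re, Complex.neg_im]; ring

theorem det_comm (a b : ℂ) : det a b = -det b a := by
  simp only [det]; ring

theorem dot_neg_l (a b : ℂ) : dot (-a) b = -dot a b := by
  simp only [dot, Complex.neg_re, Complex.neg_im]; ring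

theorem dot_comm (a b : ℂ) : dot a b = dot b a := by
  simp only [dot]; ring

/-- the algebra of 99 / 868 / 370: two single centres at a vertex with three neighbours -/
theorem two_single {u₁ u₂ u₃ : ℂ} {o₁ o₂ o₃ α β : ℝ} (s1 : o₁ = 1 ∨ o₁ = -1)
    (s2 : o₂ = 1 ∨ o₂ = -1) (h1 : Tri (-u₁) u₂ u₃ ∨ NoTri o₁ (-u₁) u₂ u₃)
    (h2 : Tri (-u₂) u₁ u₃ ∨ NoTri o₂ (-u₂) u₁ u₃) (hα : 0 ≤ α)
    (hl : (o₂ : ℂ) * u₂ = -(α * (o₁ * u₁) + β * (o₃ * u₃))) : False := by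
  obtain ⟨p, hp⟩ : ∃ p, det u₁ u₂ = p := ⟨_, rfl⟩
  obtain ⟨q, hq⟩ : ∃ q, det u₂ u₃ = q := ⟨_, rfl⟩
  obtain ⟨r, hr⟩ : ∃ r, det u₃ u₁ = r := ⟨_, rfl⟩
  have hp' : det u₂ u₁ = -p := by rw [det_comm, hp]
  have hq' : det u₃ u₂ = -q := by rw [det_comm, hq]
  have hr' : det u₁ u₃ = -r := by rw [det_comm, hr]
  -- the relation
  have hrel : o₂ * q = α * o₁ * r := by
    have h := congrArg (fun w => det w u₃) hl
    have e1 : det ((o₂ : ℂ) * u₂) u₃ = o₂ * det u₂ u₃ := by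
      simp only [det, Complex.mul_re, Complex.mul_im, Complex.ofReal_re, Complex.ofReal_im]; ring
    have e2 : det (-((α : ℂ) * (o₁ * u₁) + β * (o₃ * u₃))) u₃ = -(α * o₁ * det u₁ u₃) := by
      simp only [det, Complex.mul_re, Complex.mul_im, Complex.ofReal_re, Complex.ofReal_im,
        Complex.neg_re, Complex.neg_im, Complex.add_re, Complex.add_im]
      ring
    simp only [e1, e2, hq, hr'] at h
    linarith
  unfold Tri NoTri at h1 h2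
  simp only [det_neg_l, det_neg_r, dot_neg_l, hp, hq, hr, hp', hq', hr'] at h1 h2
  rcases h1 with ⟨a1, a2⟩ | ⟨a1, a2, a3, -⟩
  · -- TRI at the first centre
    rcases h2 with ⟨b1, b2⟩ | ⟨b1, b2, -, -⟩
    · refine no_three (p := p) (q := q) (r := r) (by linarith) (by linarith) (by linarith)
    · -- p r > 0, p q > 0 at 2; p q < 0 at 1
      nlinarith
  · rcases h2 with ⟨b1, b2⟩ | ⟨b1, b2, b3, -⟩
    · nlinarith
    · -- all signs are equal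
      have hqr : 0 < q * r := by
        have h3 : 0 < (p * q) * (p * r) := by
          apply mul_pos <;> linarith
        have h4 : (p * q) * (p * r) = p ^ 2 * (q * r) := by ring
        rw [h4] at h3
        by_contra hc
        exact absurd (mul_nonpos_of_nonneg_of_nonpos (sq_nonneg p) (not_lt.1 hc)) (not_le.2 h3)
      have ho : o₁ = o₂ := by
        rcases s1 with rfl | rfl <;> rcases s2 with rfl | rfl
        · rfl
        · exfalso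
          have : (-1 : ℝ) * q * q = α * 1 * r * q := by rw [hrel]
          nlinarith [mul_nonneg hα hqr.le, sq_nonneg q, mul_self_nonneg q, mul_pos_iff.1 hqr]
        · exfalso
          have : (1 : ℝ) * q * q = α * (-1) * r * q := by rw [hrel]
          nlinarith [mul_nonneg hα hqr.le, sq_nonneg q, mul_self_nonneg q, mul_pos_iff.1 hqr]
        · rfl
      rw [dot_comm u₂ u₁] at b3
      subst ho
      nlinarith

/-- the network of clean ends, with beta ends -/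
structure WebB (P Q : ℂ → ℂ → Prop) (o : ℂ → ℂ → ℝ) : Prop where
  rh : ∀ {z v q : ℂ}, P z v → Q z q → v + q ≠ 2 * z ∧ P (v + q - z) v ∧ Q (v + q - z) q
  threeP : ∀ {v a b c d : ℂ}, P a v → P b v → P c v → P d v → (∃ q, Q a q) → (∃ q, Q b q) →
    (∃ q, Q c q) → (∃ q, Q d q) → a ≠ b → a ≠ c → b ≠ c → d = a ∨ d = b ∨ d = c
  threeQ : ∀ {v a b c d : ℂ}, Q a v → Q b v → Q c v → Q d v → (∃ q, P a q) → (∃ q, P b q) →
    (∃ q, P c q) → (∃ q, P d q) → a ≠ b → a ≠ c → b ≠ c → d = a ∨ d = b ∨ d = c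
  sep : ∀ {z v v' q q' : ℂ}, P z v → P z v' → Q z q → Q z q' →
    0 < det (v - z) (q - z) * det (v - z) (q' - z) *
      (det (v' - z) (q - z) * det (v' - z) (q' - z))
  L2 : ∀ {z v q : ℂ}, P z v → Q z q → (∀ v', P z v' → v' = v) → (∀ q', Q z q' → q' = q) → False
  sgn : ∀ {z v : ℂ}, P z v ∨ Q z v → o z v = 1 ∨ o z v = -1
  L3P : ∀ {z v q q' : ℂ}, P z v → Q z q → Q z q' → q ≠ q' → (∀ v', P z v' → v' = v) →
    (∀ s, Q z s → s = q ∨ s = q') →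
    Tri (v - z) (q - z) (q' - z) ∨ NoTri (o z v) (v - z) (q - z) (q' - z)
  L3Q : ∀ {z v q q' : ℂ}, Q z v → P z q → P z q' → q ≠ q' → (∀ v', Q z v' → v' = v) →
    (∀ s, P z s → s = q ∨ s = q') →
    Tri (v - z) (q - z) (q' - z) ∨ NoTri (o z v) (v - z) (q - z) (q' - z)
  lp3P : ∀ {v c₁ c₂ c₃ : ℂ}, P c₁ v → P c₂ v → P c₃ v → c₁ ≠ c₂ → c₁ ≠ c₃ → c₂ ≠ c₃ →
    Q c₁ (c₁ + c₂ - v) → Q c₁ (c₁ + c₃ - v) → Q c₂ (c₂ + c₃ - v) →
    ∃ α β : ℝ, 0 ≤ α ∧ 0 ≤ β ∧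
      (o c₃ v : ℂ) * (c₃ - v) = -(α * (o c₁ v * (c₁ - v)) + β * (o c₂ v * (c₂ - v)))
  lp3Q : ∀ {v c₁ c₂ c₃ : ℂ}, Q c₁ v → Q c₂ v → Q c₃ v → c₁ ≠ c₂ → c₁ ≠ c₃ → c₂ ≠ c₃ →
    P c₁ (c₁ + c₂ - v) → P c₁ (c₁ + c₃ - v) → P c₂ (c₂ + c₃ - v) →
    ∃ α β : ℝ, 0 ≤ α ∧ 0 ≤ β ∧
      (o c₃ v : ℂ) * (c₃ - v) = -(α * (o c₁ v * (c₁ - v)) + β * (o c₂ v * (c₂ - v)))

variable {P Q : ℂ → ℂ → Prop} {o : ℂ → ℂ → ℝ}

theorem WebB.swap (h : WebB P Q o) : WebB Q P o where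
  rh {z v q} h1 h2 := by
    obtain ⟨a, b, c⟩ := h.rh h2 h1
    rw [add_comm q v] at a b c
    exact ⟨a, c, b⟩
  threeP := h.threeQ
  threeQ := h.threeP
  sep {z v v' q q'} h1 h2 h3 h4 := by
    have h5 := h.sep h3 h4 h1 h2
    have e : det (v - z) (q - z) * det (v - z) (q' - z) *
        (det (v' - z) (q - z) * det (v' - z) (q' - z)) =
        det (q - z) (v - z) * det (q - z) (v' - z) *
          (det (q' - z) (v - z) * det (q' - z) (v' - z)) := by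
      simp only [det]; ring
    rw [e]; exact h5
  L2 h1 h2 h3 h4 := h.L2 h2 h1 h4 h3
  sgn h1 := h.sgn h1.symm
  L3P := h.L3Q
  L3Q := h.L3P
  lp3P := h.lp3Q
  lp3Q := h.lp3P

/-- the second common centre, with the other ends -/
theorem WebB.rot (h : WebB P Q o) {v c₁ c₂ : ℂ} (h1 : P c₁ v) (q12 : Q c₁ (c₁ + c₂ - v)) :
    Q c₂ (c₁ + c₂ - v) := by
  have := (h.rh h1 q12).2.2
  have e2 : v + (c₁ + c₂ - v) - c₁ = c₂ := by ring
  rwa [e2] at this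

theorem WebB.le_two (h : WebB P Q o) {z v₁ v₂ v₃ q : ℂ} (h1 : P z v₁) (h2 : P z v₂)
    (h12 : v₁ ≠ v₂) (hq : Q z q) (h3 : P z v₃) : v₃ = v₁ ∨ v₃ = v₂ := by
  obtain ⟨a0, a1, a2⟩ := h.rh h1 hq
  obtain ⟨b0, b1, b2⟩ := h.rh h2 hq
  obtain ⟨c0, c1, c2⟩ := h.rh h3 hq
  have a3 : z ≠ v₁ + q - z := fun hc => a0 (by linear_combination -hc)
  have b3 : z ≠ v₂ + q - z := fun hc => b0 (by linear_combination -hc)
  have hww : v₁ + q - z ≠ v₂ + q - z := by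
    intro hc; apply h12; linear_combination hc
  rcases h.threeQ hq a2 b2 c2 ⟨_, h1⟩ ⟨_, a1⟩ ⟨_, b1⟩ ⟨_, c1⟩ a3 b3 hww with hc | hc | hc
  · exact absurd (by linear_combination hc) c0
  · left; linear_combination hc
  · right; linear_combination hc

/-- at most one single centre at a vertex with three neighbours -/
theorem WebB.one (h : WebB P Q o) {v c₁ c₂ c₃ : ℂ} (h1 : P c₁ v) (h2 : P c₂ v) (h3 : P c₃ v)
    (h12 : c₁ ≠ c₂) (h13 : c₁ ≠ c₃) (h23 : c₂ ≠ c₃) (q12 : Q c₁ (c₁ + c₂ - v))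
    (q13 : Q c₁ (c₁ + c₃ - v)) (q23 : Q c₂ (c₂ + c₃ - v)) (o1 : ∀ v', P c₁ v' → v' = v)
    (o2 : ∀ v', P c₂ v' → v' = v) : False := by
  have q21 : Q c₂ (c₂ + c₁ - v) := by
    rw [add_comm c₂ c₁]; exact h.rot h1 q12
  have q32 : Q c₃ (c₃ + c₂ - v) := by
    rw [add_comm c₃ c₂]; exact h.rot h2 q23
  have n1 : c₁ + c₂ - v ≠ c₁ + c₃ - v := by
    intro hc; apply h23; linear_combination hc
  have n2 : c₂ + c₁ - v ≠ c₂ + c₃ - v := by
    intro hc; apply h13; linear_combination hc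
  have all1 : ∀ s, Q c₁ s → s = c₁ + c₂ - v ∨ s = c₁ + c₃ - v := fun s hs =>
    h.swap.le_two q12 q13 n1 h1 hs
  have all2 : ∀ s, Q c₂ s → s = c₂ + c₁ - v ∨ s = c₂ + c₃ - v := fun s hs =>
    h.swap.le_two q21 q23 n2 h2 hs
  have a := h.L3P h1 q12 q13 n1 o1 all1
  have b := h.L3P h2 q21 q23 n2 o2 all2
  obtain ⟨α, β, hα, -, hl⟩ := h.lp3P h1 h3 h2 h13 h12 h23.symm q13 q12 q32
  have e1 : c₁ + c₂ - v - c₁ = c₂ - v := by ring
  have e2 : c₁ + c₃ - v - c₁ = c₃ - v := by ring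
  have e3 : v - c₁ = -(c₁ - v) := by ring
  have e4 : c₂ + c₁ - v - c₂ = c₁ - v := by ring
  have e5 : c₂ + c₃ - v - c₂ = c₃ - v := by ring
  have e6 : v - c₂ = -(c₂ - v) := by ring
  rw [e1, e2, e3] at a
  rw [e4, e5, e6] at b
  exact two_single (h.sgn (Or.inl h1)) (h.sgn (Or.inl h2)) a b hα hl

/-- the web of the ends at centres which have both types of ends -/
theorem WebB.toO (h : WebB P Q o) :
    WebO (fun z v => P z v ∧ ∃ q, Q z q) (fun z q => Q z q ∧ ∃ v, P z v) where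
  rh {z v q} h1 h2 := by
    obtain ⟨a, b, c⟩ := h.rh h1.1 h2.1
    exact ⟨a, ⟨b, _, c⟩, ⟨c, _, b⟩⟩
  threeP h1 h2 h3 h4 := h.threeP h1.1 h2.1 h3.1 h4.1 h1.2 h2.2 h3.2 h4.2
  threeQ h1 h2 h3 h4 := h.threeQ h1.1 h2.1 h3.1 h4.1 h1.2 h2.2 h3.2 h4.2
  sep h1 h2 h3 h4 := h.sep h1.1 h2.1 h3.1 h4.1
  L2 h1 h2 h3 h4 := h.L2 h1.1 h2.1 (fun v' hv' => h3 v' ⟨hv', h1.2⟩)
    (fun q' hq' => h4 q' ⟨hq', h2.2⟩)
  oneP h1 h2 h3 h12 h13 h23 q12 q13 q23 o1 o2 :=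
    h.one h1.1 h2.1 h3.1 h12 h13 h23 q12.1 q13.1 q23.1 (fun v' hv' => o1 v' ⟨hv', h1.2⟩)
      (fun v' hv' => o2 v' ⟨hv', h2.2⟩)
  oneQ h1 h2 h3 h12 h13 h23 q12 q13 q23 o1 o2 :=
    h.swap.one h1.1 h2.1 h3.1 h12 h13 h23 q12.1 q13.1 q23.1 (fun v' hv' => o1 v' ⟨hv', h1.2⟩)
      (fun v' hv' => o2 v' ⟨hv', h2.2⟩)

/-- **no vertex with three neighbours** (clean ends, beta ends allowed) -/
theorem WebB.d3 (h : WebB P Q o) {v c₁ c₂ c₃ : ℂ} (h1 : P c₁ v) (h2 : P c₂ v) (h3 : P c₃ v)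
    (h12 : c₁ ≠ c₂) (h13 : c₁ ≠ c₃) (h23 : c₂ ≠ c₃)
    (q12 : Q c₁ (c₁ + c₂ - v)) (q13 : Q c₁ (c₁ + c₃ - v)) (q23 : Q c₂ (c₂ + c₃ - v)) : False := by
  have q31 := h.rot h1 q13
  exact h.toO.d3 ⟨h1, _, q12⟩ ⟨h2, _, q23⟩ ⟨h3, _, q31⟩ h12 h13 h23 ⟨q12, _, h1⟩ ⟨q13, _, h1⟩
    ⟨q23, _, h2⟩

/-- **no centre with two clean ends of both types** -/
theorem WebB.no22 (h : WebB P Q o) {z v₁ v₂ q₁ q₂ : ℂ} (h1 : P z v₁) (h2 : P z v₂) (h12 : v₁ ≠ v₂)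
    (k1 : Q z q₁) (k2 : Q z q₂) (k12 : q₁ ≠ q₂) : False :=
  h.toO.no22 ⟨h1, _, k1⟩ ⟨h2, _, k1⟩ h12 ⟨k1, _, h1⟩ ⟨k2, _, h1⟩ k12

end Vale.Agent.P032.Net
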