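import Mathlib

/-!
# P032: the rhombus network, step D3 (abstract form): no vertex with three neighbours
-/

namespace Vale.Agent.P032.Net

/-- the orientation form of two vectors of the plane -/
def det (a b : ℂ) : ℝ := a.re * b.im - a.im * b.re

/-- `P z v`: `v` is a clean `T`-end of `S(z)`; `Q z q`: `q` is a clean `Tᶜ`-end of `S(z)`. -/
structure Web (P Q : ℂ → ℂ → Prop) : Prop where
  ne : ∀ {z z' v q : ℂ}, P z v → Q z' q → v ≠ q
  rh : ∀ {z v q : ℂ}, P z v → Q z q → v + q ≠ 2 * z ∧ P (v + q - z) v ∧ Q (v + q - z) q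
  threeP : ∀ {v a b c d : ℂ}, P a v → P b v → P c v → P d v → a ≠ b → a ≠ c → b ≠ c →
    d = a ∨ d = b ∨ d = c
  threeQ : ∀ {v a b c d : ℂ}, Q a v → Q b v → Q c v → Q d v → a ≠ b → a ≠ c → b ≠ c →
    d = a ∨ d = b ∨ d = c
  sep : ∀ {z v v' q q' : ℂ}, P z v → P z v' → Q z q → Q z q' →
    0 < det (v - z) (q - z) * det (v - z) (q' - z) *
      (det (v' - z) (q - z) * det (v' - z) (q' - z))
  L2 : ∀ {z v q : ℂ}, P z v → Q z q → (∀ v', P z v' → v' = v) → (∀ q', Q z q' → q' = q) → False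
  L3 : ∀ {z v q q' : ℂ}, P z v → Q z q → Q z q' → q ≠ q' → (∀ v', P z v' → v' = v) →
    (∀ s, Q z s → s = q ∨ s = q') →
    0 < det (v - z) (q - z) * det (q - z) (q' - z) ∧
      0 < det (q - z) (q' - z) * det (q' - z) (v - z)
  L3' : ∀ {z v q q' : ℂ}, Q z v → P z q → P z q' → q ≠ q' → (∀ v', Q z v' → v' = v) →
    (∀ s, P z s → s = q ∨ s = q') →
    0 < det (v - z) (q - z) * det (q - z) (q' - z) ∧
      0 < det (q - z) (q' - z) * det (q' - z) (v - z)

variable {P Q : ℂ → ℂ → Prop}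

/-- exchange of the two types -/
theorem Web.swap (h : Web P Q) : Web Q P where
  ne h1 h2 h3 := h.ne h2 h1 h3.symm
  rh {z v q} h1 h2 := by
    obtain ⟨a, b, c⟩ := h.rh h2 h1
    rw [add_comm q v] at a b c
    exact ⟨a, c, b⟩
  threeP := h.threeQ
  threeQ := h.threeP
  sep {z v v' q q'} h1 h2 h3 h4 := by
    have h5 := h.sep h3 h4 h1 h2
    have e : det (v - z) (q - z) * det (v - z) (q' - z) *
        (det (v' - z) (q - z) * det (v' - z) (q' - z)) =
        det (q - z) (v - z) * det (q - z) (v' - z) *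
          (det (q' - z) (v - z) * det (q' - z) (v' - z)) := by
      simp only [det]; ring
    rw [e]; exact h5
  L2 h1 h2 h3 h4 := h.L2 h2 h1 h4 h3
  L3 := h.L3'
  L3' := h.L3

/-- the second ends of two centres of an edge are parallel -/
theorem Web.par (h : Web P Q) {v c₁ c₂ x y : ℂ} (h1 : P c₁ v) (h2 : P c₂ v) (h12 : c₁ ≠ c₂)
    (hq : Q c₁ (c₁ + c₂ - v)) (hx : P c₁ x) (hxv : x ≠ v) (hy : P c₂ y) (hyv : y ≠ v) :
    x - c₁ = y - c₂ := by
  have e2 : v + (c₁ + c₂ - v) - c₁ = c₂ := by ring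
  have hq2 : Q c₂ (c₁ + c₂ - v) := by
    have := (h.rh h1 hq).2.2
    rwa [e2] at this
  obtain ⟨a1, a2, a3⟩ := h.rh hx hq
  obtain ⟨b1, b2, b3⟩ := h.rh hy hq2
  have hr1 : c₁ ≠ x + (c₁ + c₂ - v) - c₁ := by
    intro hc
    apply a1
    linear_combination -hc
  have hr2 : c₂ ≠ x + (c₁ + c₂ - v) - c₁ := by
    intro hc
    apply hxv
    linear_combination -hc
  rcases h.threeQ hq hq2 a3 b3 h12 hr1 hr2 with hc | hc | hc
  · exact absurd (by linear_combination hc) hyv
  · exact absurd (by linear_combination hc) b1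
  · linear_combination -hc

/-- the second ends of the two types of one centre are ends of the neighbouring centres -/
theorem Web.cases_q (h : Web P Q) {v c₁ c₂ c₃ s : ℂ} (h1 : P c₁ v) (h2 : P c₂ v) (h3 : P c₃ v)
    (h12 : c₁ ≠ c₂) (h13 : c₁ ≠ c₃) (h23 : c₂ ≠ c₃) (hs : Q c₁ s) :
    s = c₁ + c₂ - v ∨ s = c₁ + c₃ - v := by
  obtain ⟨a1, a2, a3⟩ := h.rh h1 hs
  rcases h.threeP h1 h2 h3 a2 h12 h13 h23 with hc | hc | hc
  · exact absurd (by linear_combination hc) a1
  · left; linear_combination hc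
  · right; linear_combination hc

theorem Web.q_ne (h : Web P Q) {v c₁ c₂ c₃ : ℂ} (h23 : c₂ ≠ c₃) : c₁ + c₂ - v ≠ c₁ + c₃ - v := by
  intro hc
  apply h23
  linear_combination hc

/-- Plücker -/
theorem no_three {p q r : ℝ} (h1 : p * q < 0) (h2 : q * r < 0) (h3 : p * r < 0) : False := by
  have h4 : 0 < (p * q) * (q * r) := mul_pos_of_neg_of_neg h1 h2
  have h5 : (p * q) * (q * r) * (p * r) < 0 := mul_neg_of_pos_of_neg h4 h3
  have h6 : (p * q) * (q * r) * (p * r) = (p * q * r) ^ 2 := by ring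
  rw [h6] at h5
  exact absurd h5 (not_lt.2 (sq_nonneg _))

/-- at most one centre of a full vertex has a single end -/
theorem Web.one_one (h : Web P Q) {v c₁ c₂ c₃ : ℂ} (h1 : P c₁ v) (h2 : P c₂ v) (h3 : P c₃ v)
    (h12 : c₁ ≠ c₂) (h13 : c₁ ≠ c₃) (h23 : c₂ ≠ c₃)
    (q12 : Q c₁ (c₁ + c₂ - v)) (q13 : Q c₁ (c₁ + c₃ - v)) (q23 : Q c₂ (c₂ + c₃ - v))
    (o1 : ∀ v', P c₁ v' → v' = v) (o2 : ∀ v', P c₂ v' → v' = v) : False := by
  have q21 : Q c₂ (c₂ + c₁ - v) := by
    have := (h.rh h1 q12).2.2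
    have e2 : v + (c₁ + c₂ - v) - c₁ = c₂ := by ring
    rw [e2] at this
    rwa [add_comm c₂ c₁]
  obtain ⟨a1, a2⟩ := h.L3 h1 q12 q13 (h.q_ne h23) o1 fun s hs => h.cases_q h1 h2 h3 h12 h13 h23 hs
  obtain ⟨b1, b2⟩ := h.L3 h2 q21 q23 (h.q_ne h13) o2
    fun s hs => h.cases_q h2 h1 h3 h12.symm h23 h13 hs
  have e1 : c₁ + c₂ - v - c₁ = c₂ - v := by ring
  have e2 : c₁ + c₃ - v - c₁ = c₃ - v := by ring
  have e3 : v - c₁ = -(c₁ - v) := by ring
  have e4 : c₂ + c₁ - v - c₂ = c₁ - v := by ring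
  have e5 : c₂ + c₃ - v - c₂ = c₃ - v := by ring
  have e6 : v - c₂ = -(c₂ - v) := by ring
  rw [e1, e2, e3] at a1 a2
  rw [e4, e5, e6] at b1 b2
  generalize c₁ - v = u₁ at *
  generalize c₂ - v = u₂ at *
  generalize c₃ - v = u₃ at *
  refine no_three (p := det u₁ u₂) (q := det u₂ u₃) (r := det u₃ u₁) ?_ ?_ ?_
  · have : det (-u₁) u₂ * det u₂ u₃ = -(det u₁ u₂ * det u₂ u₃) := by simp only [det, Complex.neg_re, Complex.neg_im]; ring
    linarith [this ▸ a1]
  · have : det u₂ u₃ * det u₃ (-u₁) = -(det u₂ u₃ * det u₃ u₁) := by simp only [det, Complex.neg_re, Complex.neg_im]; ring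
    linarith [this ▸ a2]
  · have : det (-u₂) u₁ * det u₁ u₃ = -(det u₁ u₂ * det u₃ u₁) := by simp only [det, Complex.neg_re, Complex.neg_im]; ring
    linarith [this ▸ b1]

/-- separation of `{a,b}` and `{c,d}` as a sign condition -/
def Sp (a b c d : ℂ) : Prop := 0 < det a c * det a d * (det b c * det b d)

theorem three_pairings {a b c d : ℂ} (h1 : Sp a b c d) (h2 : Sp a c b d) (h3 : Sp a d b c) :
    False := by
  unfold Sp at h1 h2 h3
  refine no_three (p := det a b * det c d) (q := det a c * det d b) (r := det a d * det b c) ?_ ?_ ?_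
  · have : det a b * det a c * (det d b * det d c) = -(det a b * det c d * (det a c * det d b)) := by
      simp only [det]; ring
    linarith [this ▸ h3]
  · have : det a c * det a d * (det b c * det b d) = -(det a c * det d b * (det a d * det b c)) := by
      simp only [det]; ring
    linarith [this ▸ h1]
  · have : det a b * det a d * (det c b * det c d) = -(det a b * det c d * (det a d * det b c)) := by
      simp only [det]; ring
    linarith [this ▸ h2]

theorem Sp.neg1 {a b c d : ℂ} (h : Sp (-a) b c d) : Sp a b c d := by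
  unfold Sp at *
  have : det (-a) c * det (-a) d * (det b c * det b d) =
      det a c * det a d * (det b c * det b d) := by
    simp only [det, Complex.neg_re, Complex.neg_im]; ring
  rwa [this] at h

theorem Sp.neg2 {a b c d : ℂ} (h : Sp a (-b) c d) : Sp a b c d := by
  unfold Sp at *
  have : det a c * det a d * (det (-b) c * det (-b) d) =
      det a c * det a d * (det b c * det b d) := by
    simp only [det, Complex.neg_re, Complex.neg_im]; ring
  rwa [this] at h

theorem Sp.neg3 {a b c d : ℂ} (h : Sp a b (-c) d) : Sp a b c d := by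
  unfold Sp at *
  have : det a (-c) * det a d * (det b (-c) * det b d) =
      det a c * det a d * (det b c * det b d) := by
    simp only [det, Complex.neg_re, Complex.neg_im]; ring
  rwa [this] at h

theorem Sp.comm {a b c d : ℂ} (h : Sp a b c d) : Sp b a c d := by
  unfold Sp at *; rwa [mul_comm] at h

theorem Sp.comm' {a b c d : ℂ} (h : Sp a b c d) : Sp a b d c := by
  unfold Sp at *
  have : det a d * det a c * (det b d * det b c) = det a c * det a d * (det b c * det b d) := by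
    ring
  rwa [this]

theorem Sp.swap {a b c d : ℂ} (h : Sp a b c d) : Sp c d a b := by
  unfold Sp at *
  have : det c a * det c b * (det d a * det d b) = det a c * det a d * (det b c * det b d) := by
    simp only [det]; ring
  rwa [this]

/-- two centres of a full vertex with two ends each: the third one has two ends as well or there is
a contradiction -/
theorem Web.two_two (h : Web P Q) {v c₁ c₂ c₃ : ℂ} (h1 : P c₁ v) (h2 : P c₂ v) (h3 : P c₃ v)
    (h12 : c₁ ≠ c₂) (h13 : c₁ ≠ c₃) (h23 : c₂ ≠ c₃)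
    (q12 : Q c₁ (c₁ + c₂ - v)) (q13 : Q c₁ (c₁ + c₃ - v)) (q23 : Q c₂ (c₂ + c₃ - v))
    {n : ℂ} (hn1 : P c₁ (c₁ + n)) (hn1v : c₁ + n ≠ v) (hn2 : P c₂ (c₂ + n)) (hn2v : c₂ + n ≠ v) :
    False := by
  have q21 : Q c₂ (c₁ + c₂ - v) := by
    have := (h.rh h1 q12).2.2
    have e2 : v + (c₁ + c₂ - v) - c₁ = c₂ := by ring
    rwa [e2] at this
  have q31 : Q c₃ (c₁ + c₃ - v) := by
    have := (h.rh h1 q13).2.2
    have e2 : v + (c₁ + c₃ - v) - c₁ = c₃ := by ring
    rwa [e2] at this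
  have q32 : Q c₃ (c₂ + c₃ - v) := by
    have := (h.rh h2 q23).2.2
    have e2 : v + (c₂ + c₃ - v) - c₂ = c₃ := by ring
    rwa [e2] at this
  -- separation at `c₁`, `c₂`
  have s1 : Sp (c₁ - v) n (c₂ - v) (c₃ - v) := by
    have := h.sep h1 hn1 q12 q13
    have e1 : c₁ + c₂ - v - c₁ = c₂ - v := by ring
    have e2 : c₁ + c₃ - v - c₁ = c₃ - v := by ring
    have e3 : v - c₁ = -(c₁ - v) := by ring
    have e4 : c₁ + n - c₁ = n := by ring
    rw [e1, e2, e3, e4] at this
    exact Sp.neg1 this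
  have s2 : Sp (c₂ - v) n (c₁ - v) (c₃ - v) := by
    have := h.sep h2 hn2 q21 q23
    have e1 : c₁ + c₂ - v - c₂ = c₁ - v := by ring
    have e2 : c₂ + c₃ - v - c₂ = c₃ - v := by ring
    have e3 : v - c₂ = -(c₂ - v) := by ring
    have e4 : c₂ + n - c₂ = n := by ring
    rw [e1, e2, e3, e4] at this
    exact Sp.neg1 this
  by_cases o3 : ∀ v', P c₃ v' → v' = v
  · -- the centres `r₁₂`, `r₁₃`
    obtain ⟨a1, a2, a3⟩ := h.rh hn1 q12
    obtain ⟨b1, b2, b3⟩ := h.rh hn1 q13
    obtain ⟨d1, d2, d3⟩ := h.rh hn2 q21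
    have er12 : c₁ + n + (c₁ + c₂ - v) - c₁ = c₁ + c₂ - v + n := by ring
    have er13 : c₁ + n + (c₁ + c₃ - v) - c₁ = c₁ + c₃ - v + n := by ring
    have er21 : c₂ + n + (c₁ + c₂ - v) - c₂ = c₁ + c₂ - v + n := by ring
    rw [er12] at a2 a3
    rw [er13] at b2 b3
    rw [er21] at d2 d3
    -- `r₁₃` is different from `c₁` and `c₃`
    have r1 : c₁ ≠ c₁ + c₃ - v + n := by
      intro hc; apply b1; linear_combination -hc
    have r3 : c₃ ≠ c₁ + c₃ - v + n := by
      intro hc; apply hn1v; linear_combination -hc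
    -- only one `P`-end on `r₁₃`
    have o13 : ∀ x, P (c₁ + c₃ - v + n) x → x = c₁ + n := by
      intro x hx
      obtain ⟨f1, f2, f3⟩ := h.rh hx b3
      rcases h.threeQ q13 q31 b3 f3 h13 r1 r3 with hc | hc | hc
      · linear_combination hc
      · exfalso
        rw [hc] at f2
        have hxe : x = c₃ + n := by linear_combination hc
        have := o3 x f2
        -- then `x = v`, `n = v - c₃`, `r₁₃ = c₁`
        apply r1
        linear_combination -this + hxe
      · exact absurd (by linear_combination hc) f1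
    -- the second `Q`-end of `r₁₃`
    have hL2 : ¬ ∀ s, Q (c₁ + c₃ - v + n) s → s = c₁ + c₃ - v := fun hall => h.L2 b2 b3 o13 hall
    push Not at hL2
    obtain ⟨s, hs, hsne⟩ := hL2
    obtain ⟨g1, g2, g3⟩ := h.rh b2 hs
    have t1 : c₁ ≠ c₁ + c₂ - v + n := by
      intro hc; apply a1; linear_combination -hc
    have t2 : c₁ + c₂ - v + n ≠ c₁ + c₃ - v + n := by
      intro hc; apply h23; linear_combination hc
    rcases h.threeP hn1 a2 b2 g2 t1 r1 t2 with hc | hc | hc
    · exact hsne (by linear_combination hc)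
    · -- `s = v + u₁ + u₂ + u₃ + n`
      rw [hc] at g3
      have s3 := h.sep a2 d2 d3 g3
      have e1 : c₁ + n - (c₁ + c₂ - v + n) = -(c₂ - v) := by ring
      have e2 : c₂ + n - (c₁ + c₂ - v + n) = -(c₁ - v) := by ring
      have e3 : c₁ + c₂ - v - (c₁ + c₂ - v + n) = -n := by ring
      have e4 : s - (c₁ + c₂ - v + n) = c₃ - v := by linear_combination hc
      rw [e1, e2, e3, e4] at s3
      have s3' : Sp (c₂ - v) (c₁ - v) n (c₃ - v) := (Sp.neg1 (Sp.neg2 (Sp.neg3 s3)))
      -- the three pairings of `n, u₁, u₂, u₃`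
      refine three_pairings (a := n) (b := c₁ - v) (c := c₂ - v) (d := c₃ - v) s1.comm s2.comm ?_
      exact s3'.swap.comm'
    · exact absurd (by linear_combination hc) g1
  · push Not at o3
    obtain ⟨x, hx, hxv⟩ := o3
    have e := h.par h1 h3 h13 q13 hn1 hn1v hx hxv
    have hxe : x = c₃ + n := by linear_combination -e
    subst hxe
    have s3 : Sp (c₃ - v) n (c₁ - v) (c₂ - v) := by
      have := h.sep h3 hx q31 q32
      have e1 : c₁ + c₃ - v - c₃ = c₁ - v := by ring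
      have e2 : c₂ + c₃ - v - c₃ = c₂ - v := by ring
      have e3 : v - c₃ = -(c₃ - v) := by ring
      have e4 : c₃ + n - c₃ = n := by ring
      rw [e1, e2, e3, e4] at this
      exact Sp.neg1 this
    exact three_pairings s1.comm s2.comm s3.comm

/-- **D3**: no vertex with three neighbours. -/
theorem Web.d3 (h : Web P Q) {v c₁ c₂ c₃ : ℂ} (h1 : P c₁ v) (h2 : P c₂ v) (h3 : P c₃ v)
    (h12 : c₁ ≠ c₂) (h13 : c₁ ≠ c₃) (h23 : c₂ ≠ c₃)
    (q12 : Q c₁ (c₁ + c₂ - v)) (q13 : Q c₁ (c₁ + c₃ - v)) (q23 : Q c₂ (c₂ + c₃ - v)) : False := by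
  have q21 : Q c₂ (c₂ + c₁ - v) := by
    have := (h.rh h1 q12).2.2
    have e2 : v + (c₁ + c₂ - v) - c₁ = c₂ := by ring
    rw [e2] at this
    rwa [add_comm c₂ c₁]
  have q31 : Q c₃ (c₃ + c₁ - v) := by
    have := (h.rh h1 q13).2.2
    have e2 : v + (c₁ + c₃ - v) - c₁ = c₃ := by ring
    rw [e2] at this
    rwa [add_comm c₃ c₁]
  have q32 : Q c₃ (c₃ + c₂ - v) := by
    have := (h.rh h2 q23).2.2
    have e2 : v + (c₂ + c₃ - v) - c₂ = c₃ := by ring
    rw [e2] at this
    rwa [add_comm c₃ c₂]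
  -- two centres with second ends
  have key : ∀ {a b c : ℂ}, P a v → P b v → P c v → a ≠ b → a ≠ c → b ≠ c →
      Q a (a + b - v) → Q a (a + c - v) → Q b (b + c - v) →
      (¬ ∀ v', P a v' → v' = v) → (¬ ∀ v', P b v' → v' = v) → False := by
    intro a b c ha hb hc hab hac hbc qab qac qbc oa ob
    push Not at oa ob
    obtain ⟨x, hx, hxv⟩ := oa
    obtain ⟨y, hy, hyv⟩ := ob
    have e := h.par ha hb hab qab hx hxv hy hyv
    have ex : x = a + (x - a) := by ring
    have ey : y = b + (x - a) := by linear_combination -e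
    refine h.two_two ha hb hc hab hac hbc qab qac qbc (n := x - a) (ex ▸ hx) (ex ▸ hxv) (ey ▸ hy)
      (ey ▸ hyv)
  by_cases o1 : ∀ v', P c₁ v' → v' = v
  · by_cases o2 : ∀ v', P c₂ v' → v' = v
    · exact h.one_one h1 h2 h3 h12 h13 h23 q12 q13 q23 o1 o2
    · by_cases o3 : ∀ v', P c₃ v' → v' = v
      · exact h.one_one h1 h3 h2 h13 h12 h23.symm q13 q12 q32 o1 o3
      · exact key h2 h3 h1 h23 h12.symm h13.symm q23 q21 q31 o2 o3
  · by_cases o2 : ∀ v', P c₂ v' → v' = v
    · by_cases o3 : ∀ v', P c₃ v' → v' = v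
      · exact h.one_one h2 h3 h1 h23 h12.symm h13.symm q23 q21 q31 o2 o3
      · exact key h1 h3 h2 h13 h12 h23.symm q13 q12 q32 o1 o3
    · exact key h1 h2 h3 h12 h13 h23 q12 q13 q23 o1 o2

end Vale.Agent.P032.Net
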