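import Vale.Agent.P032.Net.U

/-!
# P032: the family of the rhombus networks; no centre has two clean ends of each type

`P i`, `Q i`: the clean `X`-ends and `Xᶜ`-ends of the `i`-th network. `f2P`, `f2Q`: if the single
end of a centre with counts `(1,2)` is strictly between the two others (this happens only at beta
centres), then in another network the same centre has counts `(2,2)`, and there neither both ends
of the first type nor both ends of the second type are strictly between the two others.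
-/

namespace Vale.Agent.P032.Net

variable {ι : Type*} {P Q : ι → ℂ → ℂ → Prop} {o : ι → ℂ → ℂ → ℝ}

/-- counts `(2,2)` at `z`, not both ends of one type see `Opp` -/
def Bad22 (P Q : ℂ → ℂ → Prop) (z : ℂ) : Prop :=
  ∃ v₁ v₂ q₁ q₂ : ℂ, P z v₁ ∧ P z v₂ ∧ v₁ ≠ v₂ ∧ Q z q₁ ∧ Q z q₂ ∧ q₁ ≠ q₂ ∧
    ¬ (Opp (v₁ - z) (q₁ - z) (q₂ - z) ∧ Opp (v₂ - z) (q₁ - z) (q₂ - z)) ∧
    ¬ (Opp (q₁ - z) (v₁ - z) (v₂ - z) ∧ Opp (q₂ - z) (v₁ - z) (v₂ - z))

structure WebF (P Q : ι → ℂ → ℂ → Prop) (o : ι → ℂ → ℂ → ℝ) : Prop where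
  web : ∀ i, Web1 (P i) (Q i) (o i)
  f2P : ∀ {i : ι} {z v q q' : ℂ}, P i z v → Q i z q → Q i z q' → q ≠ q' →
    (∀ v', P i z v' → v' = v) → Opp (v - z) (q - z) (q' - z) → ∃ j, Bad22 (P j) (Q j) z
  f2Q : ∀ {i : ι} {z v q q' : ℂ}, Q i z v → P i z q → P i z q' → q ≠ q' →
    (∀ v', Q i z v' → v' = v) → Opp (v - z) (q - z) (q' - z) → ∃ j, Bad22 (P j) (Q j) z

/-- `Bad22` is impossible -/
theorem Web1.no_bad {P Q : ℂ → ℂ → Prop} {o : ℂ → ℂ → ℝ} (h : Web1 P Q o) {z : ℂ}
    (hb : Bad22 P Q z) : False := by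
  obtain ⟨v₁, v₂, q₁, q₂, h1, h2, h12, k1, k2, k12, n1, n2⟩ := hb
  rcases h.two_opp h1 h2 h12 k1 k2 k12 with ⟨f, g⟩ | ⟨f, g⟩
  · apply n1
    have a := f.opp h
    have b := g.opp h
    have e1 : v₁ + q₁ - z - v₁ = q₁ - z := by ring
    have e2 : v₁ + q₂ - z - v₁ = q₂ - z := by ring
    have e3 : v₂ + q₁ - z - v₂ = q₁ - z := by ring
    have e4 : v₂ + q₂ - z - v₂ = q₂ - z := by ring
    rw [e1, e2] at a
    rw [e3, e4] at b
    exact ⟨a, b⟩
  · apply n2
    have a := f.opp h.swap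
    have b := g.opp h.swap
    have e1 : q₁ + v₁ - z - q₁ = v₁ - z := by ring
    have e2 : q₁ + v₂ - z - q₁ = v₂ - z := by ring
    have e3 : q₂ + v₁ - z - q₂ = v₁ - z := by ring
    have e4 : q₂ + v₂ - z - q₂ = v₂ - z := by ring
    rw [e1, e2] at a
    rw [e3, e4] at b
    exact ⟨a, b⟩

/-- no `P`-vertex is full (**D3**) -/
theorem WebF.noFull (h : WebF P Q o) {i : ι} {v c₁ c₂ c₃ : ℂ}
    (f : FullV (P i) (Q i) v c₁ c₂ c₃) : False := by
  have hw := h.web i
  have main : ∀ {a b c : ℂ}, FullV (P i) (Q i) v a b c → (∀ v', P i a v' → v' = v) → False := by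
    intro a b c g hs
    have hne : a + b - v ≠ a + c - v := by
      intro hc; apply g.n23; linear_combination hc
    have ho := g.opp hw
    have e1 : b - v = a + b - v - a := by ring
    have e2 : c - v = a + c - v - a := by ring
    rw [e1, e2] at ho
    obtain ⟨j, hj⟩ := h.f2P g.h1 g.q12 g.q13 hne hs ho
    exact (h.web j).no_bad hj
  by_cases o1 : ∀ v', P i c₁ v' → v' = v
  · exact main f o1
  · by_cases o2 : ∀ v', P i c₂ v' → v' = v
    · exact main (f.rot hw) o2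
    · exact f.two hw o1 o2

/-- no `Q`-vertex is full -/
theorem WebF.noFull' (h : WebF P Q o) {i : ι} {v c₁ c₂ c₃ : ℂ}
    (f : FullV (Q i) (P i) v c₁ c₂ c₃) : False := by
  have hw := (h.web i).swap
  have main : ∀ {a b c : ℂ}, FullV (Q i) (P i) v a b c → (∀ v', Q i a v' → v' = v) → False := by
    intro a b c g hs
    have hne : a + b - v ≠ a + c - v := by
      intro hc; apply g.n23; linear_combination hc
    have ho := g.opp hw
    have e1 : b - v = a + b - v - a := by ring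
    have e2 : c - v = a + c - v - a := by ring
    rw [e1, e2] at ho
    obtain ⟨j, hj⟩ := h.f2Q g.h1 g.q12 g.q13 hne hs ho
    exact (h.web j).no_bad hj
  by_cases o1 : ∀ v', Q i c₁ v' → v' = v
  · exact main f o1
  · by_cases o2 : ∀ v', Q i c₂ v' → v' = v
    · exact main (f.rot hw) o2
    · exact f.two hw o1 o2

/-- **no centre has two clean ends of both types of one network.** -/
theorem WebF.no22 (h : WebF P Q o) {i : ι} {z v₁ v₂ q₁ q₂ : ℂ} (h1 : P i z v₁) (h2 : P i z v₂)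
    (h12 : v₁ ≠ v₂) (k1 : Q i z q₁) (k2 : Q i z q₂) (k12 : q₁ ≠ q₂) : False := by
  rcases (h.web i).two_opp h1 h2 h12 k1 k2 k12 with ⟨f, -⟩ | ⟨f, -⟩
  · exact h.noFull f
  · exact h.noFull' f

/-- a single end is never strictly between the two others -/
theorem WebF.noOpp (h : WebF P Q o) {i : ι} {z v q q' : ℂ} (hv : P i z v) (hq : Q i z q)
    (hq' : Q i z q') (hne : q ≠ q') (hs : ∀ v', P i z v' → v' = v) :
    ¬ Opp (v - z) (q - z) (q' - z) := fun ho => by
  obtain ⟨j, hj⟩ := h.f2P hv hq hq' hne hs ho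
  exact (h.web j).no_bad hj

end Vale.Agent.P032.Net
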