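import Vale.Agent.P032.Net.Fam

/-!
# P032: no centre has two clean ends of each type, with centres of class (V)

`Sg o z v q`: the sign `o z v * det (v - z) (q - z) * <v - z, q - z>` is positive. `WebG` weakens the
fields `f2P`, `f2Q` of `WebF`: a single end which is strictly between the two others comes from a
network with `Bad22`, or it has `Sg` for both of them (antipodal pairs of near beta ends). Two
centres of the second kind at one full vertex contradict each other.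
-/

namespace Vale.Agent.P032.Net

variable {ι : Type*} {P Q : ι → ℂ → ℂ → Prop} {o : ι → ℂ → ℂ → ℝ}

/-- scalar product -/
def dt (v w : ℂ) : ℝ := v.re * w.re + v.im * w.im

/-- the sign of the end `q` seen from the end `v` of the centre `z` -/
def Sg (o : ℂ → ℂ → ℝ) (z v q : ℂ) : Prop :=
  0 < o z v * det (v - z) (q - z) * dt (v - z) (q - z)

theorem Bad22.swap {P Q : ℂ → ℂ → Prop} {z : ℂ} (h : Bad22 P Q z) : Bad22 Q P z := by
  obtain ⟨v₁, v₂, q₁, q₂, h1, h2, h12, k1, k2, k12, n1, n2⟩ := h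
  exact ⟨q₁, q₂, v₁, v₂, k1, k2, k12, h1, h2, h12, n2, n1⟩

structure WebG (P Q : ι → ℂ → ℂ → Prop) (o : ι → ℂ → ℂ → ℝ) : Prop where
  web : ∀ i, Web1 (P i) (Q i) (o i)
  f2P : ∀ {i : ι} {z v q q' : ℂ}, P i z v → Q i z q → Q i z q' → q ≠ q' →
    (∀ v', P i z v' → v' = v) → Opp (v - z) (q - z) (q' - z) →
      (∃ j, Bad22 (P j) (Q j) z) ∨ (Sg (o i) z v q ∧ Sg (o i) z v q')
  f2Q : ∀ {i : ι} {z v q q' : ℂ}, Q i z v → P i z q → P i z q' → q ≠ q' →
    (∀ v', Q i z v' → v' = v) → Opp (v - z) (q - z) (q' - z) →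
      (∃ j, Bad22 (P j) (Q j) z) ∨ (Sg (o i) z v q ∧ Sg (o i) z v q')

theorem WebF.webG (h : WebF P Q o) : WebG P Q o where
  web := h.web
  f2P a b c d e f := Or.inl (h.f2P a b c d e f)
  f2Q a b c d e f := Or.inl (h.f2Q a b c d e f)

theorem WebG.swap (h : WebG P Q o) : WebG Q P o where
  web i := (h.web i).swap
  f2P a b c d e f := (h.f2Q a b c d e f).imp (fun ⟨j, hj⟩ => ⟨j, hj.swap⟩) id
  f2Q a b c d e f := (h.f2P a b c d e f).imp (fun ⟨j, hj⟩ => ⟨j, hj.swap⟩) id

/-- the orientations at a full vertex are equal -/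
theorem FullV.ori {P Q : ℂ → ℂ → Prop} {o : ℂ → ℂ → ℝ} (h : Web1 P Q o) {v c₁ c₂ c₃ : ℂ}
    (f : FullV P Q v c₁ c₂ c₃) (h1 : o c₁ v ≠ 0) : 0 < o c₁ v * o c₂ v := by
  obtain ⟨a, b, ha, hb, hl⟩ := h.lp3P f.h2 f.q23 f.h1 f.q12 f.n12
    (by intro hc; apply f.n13; rw [hc]; ring)
  obtain ⟨s1, s2, s3⟩ := f.surround h
  have e1 : v + (c₂ + c₃ - v) - c₂ = c₃ := by ring
  have e2 : c₂ + c₃ - v - c₂ = c₃ - v := by ring
  rw [e1, e2] at hl
  have hd := congrArg (fun w => det w (c₃ - v)) hl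
  have f2 : det ((o c₁ v : ℂ) * (c₁ - v) + a * (o c₂ v * (c₂ - v)) + b * (o c₃ v * (c₃ - v)))
      (c₃ - v) = o c₁ v * det (c₁ - v) (c₃ - v) + a * (o c₂ v * det (c₂ - v) (c₃ - v)) := by
    simp only [det, Complex.mul_re, Complex.mul_im, Complex.ofReal_re, Complex.ofReal_im,
      Complex.add_re, Complex.add_im]
    ring
  have f3 : det 0 (c₃ - v) = 0 := by simp [det]
  simp only [f2, f3] at hd
  rw [det_comm (c₁ - v) (c₃ - v)] at hd
  generalize det (c₃ - v) (c₁ - v) = x at *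
  generalize det (c₂ - v) (c₃ - v) = y at *
  have h5 : o c₁ v * x = a * (o c₂ v * y) := by linarith
  have h6 : a * (o c₁ v * o c₂ v) * y ^ 2 = o c₁ v ^ 2 * (y * x) := by
    linear_combination (-(o c₁ v * y)) * h5
  have h7 : 0 < o c₁ v ^ 2 * (y * x) := mul_pos (by positivity) s2
  rw [← h6] at h7
  have h8 : 0 < a * (o c₁ v * o c₂ v) := by
    by_contra hc
    exact absurd (mul_nonpos_of_nonpos_of_nonneg (not_lt.1 hc) (sq_nonneg y)) (not_le.2 h7)
  by_contra hc
  exact absurd (mul_nonpos_of_nonneg_of_nonpos ha (not_lt.1 hc)) (not_le.2 h8)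

/-- two centres with positive signs at one full vertex -/
theorem FullV.sg {P Q : ℂ → ℂ → Prop} {o : ℂ → ℂ → ℝ} (h : Web1 P Q o) {v c₁ c₂ c₃ : ℂ}
    (f : FullV P Q v c₁ c₂ c₃) (s1 : Sg o c₁ v (c₁ + c₂ - v)) (s2 : Sg o c₂ v (c₂ + c₁ - v)) :
    False := by
  unfold Sg at s1 s2
  have e1 : c₁ + c₂ - v - c₁ = c₂ - v := by ring
  have e2 : c₂ + c₁ - v - c₂ = c₁ - v := by ring
  have e3 : v - c₁ = -(c₁ - v) := by ring
  have e4 : v - c₂ = -(c₂ - v) := by ring
  rw [e1, e3] at s1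
  rw [e2, e4] at s2
  have o1 : o c₁ v ≠ 0 := by
    intro hc; rw [hc] at s1; simp at s1
  have ho := f.ori h o1
  have d1 : det (-(c₁ - v)) (c₂ - v) * dt (-(c₁ - v)) (c₂ - v) =
      det (c₁ - v) (c₂ - v) * dt (c₁ - v) (c₂ - v) := by
    simp only [det, dt, Complex.neg_re, Complex.neg_im]; ring
  have d2 : det (-(c₂ - v)) (c₁ - v) * dt (-(c₂ - v)) (c₁ - v) =
      -(det (c₁ - v) (c₂ - v) * dt (c₁ - v) (c₂ - v)) := by
    simp only [det, dt, Complex.neg_re, Complex.neg_im]; ring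
  rw [mul_assoc, d1] at s1
  rw [mul_assoc, d2] at s2
  generalize det (c₁ - v) (c₂ - v) * dt (c₁ - v) (c₂ - v) = x at *
  have h3 := mul_pos s1 s2
  have h4 : o c₁ v * x * (o c₂ v * -x) = -((o c₁ v * o c₂ v) * x ^ 2) := by ring
  rw [h4] at h3
  have h5 := mul_nonneg ho.le (sq_nonneg x)
  linarith

/-- no `P`-vertex is full -/
theorem WebG.noFull (h : WebG P Q o) {i : ι} {v c₁ c₂ c₃ : ℂ}
    (f : FullV (P i) (Q i) v c₁ c₂ c₃) : False := by
  have hw := h.web i
  have sgn : ∀ {a b c : ℂ}, FullV (P i) (Q i) v a b c → (∀ v', P i a v' → v' = v) →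
      Sg (o i) a v (a + b - v) ∧ Sg (o i) a v (a + c - v) := by
    intro a b c g hs
    have hne : a + b - v ≠ a + c - v := by
      intro hc; apply g.n23; linear_combination hc
    have ho := g.opp hw
    have e1 : b - v = a + b - v - a := by ring
    have e2 : c - v = a + c - v - a := by ring
    rw [e1, e2] at ho
    rcases h.f2P g.h1 g.q12 g.q13 hne hs ho with ⟨j, hj⟩ | hj
    · exact ((h.web j).no_bad hj).elim
    · exact hj
  have main : ∀ {a b c : ℂ}, FullV (P i) (Q i) v a b c → (∀ v', P i a v' → v' = v) →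
      (∀ v', P i b v' → v' = v) → False := by
    intro a b c g ha hb
    exact g.sg hw (sgn g ha).1 (sgn (g.rot hw) hb).2
  by_cases o1 : ∀ v', P i c₁ v' → v' = v
  · by_cases o2 : ∀ v', P i c₂ v' → v' = v
    · exact main f o1 o2
    · by_cases o3 : ∀ v', P i c₃ v' → v' = v
      · exact main ((f.rot hw).rot hw) o3 o1
      · exact (f.rot hw).two hw o2 o3
  · by_cases o2 : ∀ v', P i c₂ v' → v' = v
    · by_cases o3 : ∀ v', P i c₃ v' → v' = v
      · exact main (f.rot hw) o2 o3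
      · exact ((f.rot hw).rot hw).two hw o3 o1
    · exact f.two hw o1 o2

/-- no `Q`-vertex is full -/
theorem WebG.noFull' (h : WebG P Q o) {i : ι} {v c₁ c₂ c₃ : ℂ}
    (f : FullV (Q i) (P i) v c₁ c₂ c₃) : False := h.swap.noFull f

/-- **no centre has two clean ends of both types of one network.** -/
theorem WebG.no22 (h : WebG P Q o) {i : ι} {z v₁ v₂ q₁ q₂ : ℂ} (h1 : P i z v₁) (h2 : P i z v₂)
    (h12 : v₁ ≠ v₂) (k1 : Q i z q₁) (k2 : Q i z q₂) (k12 : q₁ ≠ q₂) : False := by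
  rcases (h.web i).two_opp h1 h2 h12 k1 k2 k12 with ⟨f, -⟩ | ⟨f, -⟩
  · exact h.noFull f
  · exact h.noFull' f

/-- a single end strictly between the two others has the signs of class (V) -/
theorem WebG.opp_sg (h : WebG P Q o) {i : ι} {z v q q' : ℂ} (hv : P i z v) (hq : Q i z q)
    (hq' : Q i z q') (hne : q ≠ q') (hs : ∀ v', P i z v' → v' = v)
    (ho : Opp (v - z) (q - z) (q' - z)) : Sg (o i) z v q ∧ Sg (o i) z v q' := by
  rcases h.f2P hv hq hq' hne hs ho with ⟨j, hj⟩ | hj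
  · exact ((h.web j).no_bad hj).elim
  · exact hj

/-- **one of the second centres**: in a network with counts `(1,2)` the two second centres have one
end of the second type and two of the first type or one of each -/
theorem WebG.second (h : WebG P Q o) {i : ι} {z v q q' s : ℂ} (hv : P i z v) (hq : Q i z q)
    (hq' : Q i z q') (hne : q ≠ q') (hs : Q i (v + q - z) s) : s = q := by
  by_contra hc
  exact h.noFull ((h.web i).full_of hv hq hq' hne hs hc)

end Vale.Agent.P032.Net
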