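import Vale.Agent.P032.Net.Fam2

/-!
# P032: no centre has two clean ends of each type, with centres of the classes (I), (V) and (III)

`WebH`: a single end which is strictly between the two others comes from another network with
`Bad22`, or the two others are more than 120 degrees apart and have opposite orientations (classes
(I), (V)), or, if `E` holds, both have the orientation opposite to the single end (class (III)).
`lawP`, `lawQ`: at a full vertex the other two centres see the two double ends of a centre with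
opposite orientations.
-/

namespace Vale.Agent.P032.Net

variable {ι : Type*} {P Q : ι → ℂ → ℂ → Prop} {o : ι → ℂ → ℂ → ℝ} {E : Prop}

/-- the two others `q, q'` of a single end `v` of the centre `z` -/
def Wide (E : Prop) (o : ℂ → ℂ → ℝ) (z v q q' : ℂ) : Prop :=
  dt (q - z) (q' - z) < -(1 / 2) ∧
    (o z q = -o z q' ∨ (E ∧ o z q = -o z v ∧ o z q' = -o z v))

structure WebH (E : Prop) (P Q : ι → ℂ → ℂ → Prop) (o : ι → ℂ → ℂ → ℝ) : Prop where
  web : ∀ i, Web1 (P i) (Q i) (o i)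
  unP : ∀ {i : ι} {z v : ℂ}, P i z v → dt (v - z) (v - z) = 1
  unQ : ∀ {i : ι} {z v : ℂ}, Q i z v → dt (v - z) (v - z) = 1
  sgP : ∀ {i : ι} {z v : ℂ}, P i z v → o i z v = 1 ∨ o i z v = -1
  sgQ : ∀ {i : ι} {z v : ℂ}, Q i z v → o i z v = 1 ∨ o i z v = -1
  lawP : ∀ {i : ι} {v c₁ c₂ c₃ : ℂ}, FullV (P i) (Q i) v c₁ c₂ c₃ →
    0 < det (c₁ - v) (c₂ - v) * det (c₃ - v) (c₁ - v) →
      o i c₂ (c₁ + c₂ - v) = -o i c₃ (c₁ + c₃ - v)
  lawQ : ∀ {i : ι} {v c₁ c₂ c₃ : ℂ}, FullV (Q i) (P i) v c₁ c₂ c₃ →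
    0 < det (c₁ - v) (c₂ - v) * det (c₃ - v) (c₁ - v) →
      o i c₂ (c₁ + c₂ - v) = -o i c₃ (c₁ + c₃ - v)
  f2P : ∀ {i : ι} {z v q q' : ℂ}, P i z v → Q i z q → Q i z q' → q ≠ q' →
    (∀ v', P i z v' → v' = v) → Opp (v - z) (q - z) (q' - z) →
      (∃ j, Bad22 (P j) (Q j) z) ∨ Wide E (o i) z v q q'
  f2Q : ∀ {i : ι} {z v q q' : ℂ}, Q i z v → P i z q → P i z q' → q ≠ q' →
    (∀ v', Q i z v' → v' = v) → Opp (v - z) (q - z) (q' - z) →
      (∃ j, Bad22 (P j) (Q j) z) ∨ Wide E (o i) z v q q'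
  f22P : E → ∀ {i : ι} {z v₁ v₂ q₁ q₂ : ℂ}, P i z v₁ → P i z v₂ → v₁ ≠ v₂ → Q i z q₁ →
    Q i z q₂ → q₁ ≠ q₂ → Opp (v₁ - z) (q₁ - z) (q₂ - z) → Opp (v₂ - z) (q₁ - z) (q₂ - z) →
      o i z q₁ = o i z v₁ → o i z q₂ = o i z v₁ → o i z v₂ = o i z v₁ → False
  f22Q : E → ∀ {i : ι} {z v₁ v₂ q₁ q₂ : ℂ}, Q i z v₁ → Q i z v₂ → v₁ ≠ v₂ → P i z q₁ →
    P i z q₂ → q₁ ≠ q₂ → Opp (v₁ - z) (q₁ - z) (q₂ - z) → Opp (v₂ - z) (q₁ - z) (q₂ - z) →
      o i z q₁ = o i z v₁ → o i z q₂ = o i z v₁ → o i z v₂ = o i z v₁ → False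

theorem WebH.swap (h : WebH E P Q o) : WebH E Q P o where
  web i := (h.web i).swap
  unP := h.unQ
  unQ := h.unP
  sgP := h.sgQ
  sgQ := h.sgP
  lawP := h.lawQ
  lawQ := h.lawP
  f2P a b c d e f := (h.f2Q a b c d e f).imp (fun ⟨j, hj⟩ => ⟨j, hj.swap⟩) id
  f2Q a b c d e f := (h.f2P a b c d e f).imp (fun ⟨j, hj⟩ => ⟨j, hj.swap⟩) id
  f22P := h.f22Q
  f22Q := h.f22P

/-- a single centre of a full vertex is wide -/
theorem WebH.wide (h : WebH E P Q o) {i : ι} {v a b c : ℂ} (g : FullV (P i) (Q i) v a b c)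
    (hs : ∀ v', P i a v' → v' = v) : Wide E (o i) a v (a + b - v) (a + c - v) := by
  have hw := h.web i
  have hne : a + b - v ≠ a + c - v := by
    intro hc; apply g.n23; linear_combination hc
  have ho := g.opp hw
  have e1 : b - v = a + b - v - a := by ring
  have e2 : c - v = a + c - v - a := by ring
  rw [e1, e2] at ho
  rcases h.f2P g.h1 g.q12 g.q13 hne hs ho with ⟨j, hj⟩ | hj
  · exact ((h.web j).no_bad hj).elim
  · exact hj

/-- equal orientations at a full vertex -/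
theorem WebH.oriEq (h : WebH E P Q o) {i : ι} {v a b c : ℂ} (g : FullV (P i) (Q i) v a b c) :
    o i a v = o i b v := by
  have h1 : o i a v ≠ 0 := by rcases h.sgP g.h1 with h | h <;> rw [h] <;> norm_num
  have h2 := g.ori (h.web i) h1
  rcases h.sgP g.h1 with e | e <;> rcases h.sgP g.h2 with f | f <;> rw [e, f] at h2 ⊢ <;>
    norm_num at h2

/-- a full vertex with two single centres -/
theorem WebH.vtx (h : WebH E P Q o) {i : ι} {v z c d : ℂ} (g : FullV (P i) (Q i) v z c d)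
    (hc : ∀ v', P i c v' → v' = v) (hd : ∀ v', P i d v' → v' = v) :
    (o i c (z + c - v) = o i z (z + d - v) ∧ o i z (z + d - v) = -o i z (z + c - v)) ∨
      (E ∧ o i z (z + c - v) = o i z v ∧ o i z (z + d - v) = o i z v) := by
  have hw := h.web i
  have g2 := g.rot hw
  have g3 := g2.rot hw
  obtain ⟨s1, s2, s3⟩ := g.surround hw
  obtain ⟨s1', s2', s3'⟩ := g2.surround hw
  obtain ⟨s1'', s2'', s3''⟩ := g3.surround hw
  have L1 := h.lawP g s3
  have L2 := h.lawP g2 s3'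
  have L3 := h.lawP g3 s3''
  have w1 := (h.wide g2 hc).2
  have w2 := (h.wide g3 hd).2
  have o1 := h.oriEq g
  have o2 := h.oriEq g2
  have e1 : c + z - v = z + c - v := by ring
  have e2 : d + z - v = z + d - v := by ring
  have e3 : d + c - v = c + d - v := by ring
  rw [e1] at L2 w1
  rw [e2, e3] at L3 w2
  have hs := h.sgP g.h1
  rcases w1 with w1 | ⟨hE, w1, w1'⟩ <;> rcases w2 with w2 | ⟨hE', w2, w2'⟩
  · left
    constructor <;> linarith
  · right
    refine ⟨hE', ?_, ?_⟩ <;> linarith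
  · right
    refine ⟨hE, ?_, ?_⟩ <;> linarith
  · exfalso
    have : o i z v = 0 := by linarith
    rcases hs with hs | hs <;> rw [hs] at this <;> norm_num at this

/-- two full `P`-ends of a centre -/
theorem WebH.kill22 (h : WebH E P Q o) {i : ι} {z v₁ v₂ q₁ q₂ : ℂ} (hv : v₁ ≠ v₂)
    (F1 : FullV (P i) (Q i) v₁ z (v₁ + q₁ - z) (v₁ + q₂ - z))
    (F2 : FullV (P i) (Q i) v₂ z (v₂ + q₁ - z) (v₂ + q₂ - z)) : False := by
  have hw := h.web i
  have z1 : ¬ ∀ v', P i z v' → v' = v₁ := fun hc => hv (hc v₂ F2.h1).symm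
  have z2 : ¬ ∀ v', P i z v' → v' = v₂ := fun hc => hv (hc v₁ F1.h1)
  have c11 : ∀ v', P i (v₁ + q₁ - z) v' → v' = v₁ := by
    by_contra hc; exact F1.two hw z1 hc
  have c12 : ∀ v', P i (v₁ + q₂ - z) v' → v' = v₁ := by
    by_contra hc; exact ((F1.rot hw).rot hw).two hw hc z1
  have c21 : ∀ v', P i (v₂ + q₁ - z) v' → v' = v₂ := by
    by_contra hc; exact F2.two hw z2 hc
  have c22 : ∀ v', P i (v₂ + q₂ - z) v' → v' = v₂ := by
    by_contra hc; exact ((F2.rot hw).rot hw).two hw hc z2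
  have t1 := h.vtx F1 c11 c12
  have t2 := h.vtx F2 c21 c22
  have Q1 := F1.q12
  have Q2 := F1.q13
  have e1 : z + (v₁ + q₁ - z) - v₁ = q₁ := by ring
  have e2 : z + (v₁ + q₂ - z) - v₁ = q₂ := by ring
  have e3 : z + (v₂ + q₁ - z) - v₂ = q₁ := by ring
  have e4 : z + (v₂ + q₂ - z) - v₂ = q₂ := by ring
  rw [e1] at Q1
  rw [e2] at Q2
  rw [e1, e2] at t1
  rw [e3, e4] at t2
  have o1 := F1.opp hw
  have o2 := F2.opp hw
  have e5 : v₁ + q₁ - z - v₁ = q₁ - z := by ring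
  have e6 : v₁ + q₂ - z - v₁ = q₂ - z := by ring
  have e7 : v₂ + q₁ - z - v₂ = q₁ - z := by ring
  have e8 : v₂ + q₂ - z - v₂ = q₂ - z := by ring
  rw [e5, e6] at o1
  rw [e7, e8] at o2
  have hq : q₁ ≠ q₂ := by
    intro hc; apply F1.n23; rw [hc]
  have n1 : o i z q₁ ≠ 0 := by rcases h.sgQ Q1 with h | h <;> rw [h] <;> norm_num
  rcases t1 with ⟨a1, a2⟩ | ⟨hE, a1, a2⟩ <;> rcases t2 with ⟨b1, b2⟩ | ⟨-, b1, b2⟩
  · -- the orientations of the two second centres at `q₁` are equal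
    obtain ⟨P1, P2, P3⟩ := hw.other F1.h1 Q1
    obtain ⟨R1, R2, R3⟩ := hw.other F2.h1 Q1
    have hcc : v₂ + q₁ - z ≠ q₁ + v₁ - z := by
      intro hc; apply hv; linear_combination -hc
    obtain ⟨a, b, ha, hb, hl⟩ := hw.lp3Q Q1 F1.h1 R2 R1 R3.symm hcc
    have e9 : q₁ + v₁ - z = v₁ + q₁ - z := by ring
    have e10 : v₂ + q₁ - z - q₁ = v₂ - z := by ring
    rw [e9, e10, a1, b1] at hl
    have hd := congrArg (fun w => det w (q₁ - z)) hl
    have f2 : det ((o i z q₂ : ℂ) * (v₂ - z) + a * (o i z q₁ * (z - q₁)) +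
        b * (o i z q₂ * (v₁ - z))) (q₁ - z) =
        o i z q₂ * (det (v₂ - z) (q₁ - z) + b * det (v₁ - z) (q₁ - z)) := by
      simp only [det, Complex.mul_re, Complex.mul_im, Complex.ofReal_re, Complex.ofReal_im,
        Complex.sub_re, Complex.sub_im, Complex.add_re, Complex.add_im]
      ring
    have f3 : det 0 (q₁ - z) = 0 := by simp [det]
    simp only [f2, f3] at hd
    have n2 : o i z q₂ ≠ 0 := by rcases h.sgQ Q2 with h | h <;> rw [h] <;> norm_num
    have hz := (mul_eq_zero.1 hd).resolve_left n2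
    have x1 := o1.2
    have x2 := o2.2
    rw [det_comm (v₂ - z) (q₁ - z), det_comm (v₁ - z) (q₁ - z)] at hz
    generalize det (q₁ - z) (v₁ - z) = x at *
    generalize det (q₁ - z) (v₂ - z) = y at *
    generalize det (q₁ - z) (q₂ - z) = w at *
    have hz' : y * w + b * (x * w) = 0 := by linear_combination (-w) * hz
    have := mul_nonneg hb x1.le
    linarith
  · exfalso; apply n1; linarith
  · exfalso; apply n1; linarith
  · exact h.f22P hE F1.h1 F2.h1 hv Q1 Q2 hq o1 o2 (by linarith) (by linarith) (by linarith)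

/-- **no centre has two clean ends of both types of one network.** -/
theorem WebH.no22 (h : WebH E P Q o) {i : ι} {z v₁ v₂ q₁ q₂ : ℂ} (h1 : P i z v₁) (h2 : P i z v₂)
    (h12 : v₁ ≠ v₂) (k1 : Q i z q₁) (k2 : Q i z q₂) (k12 : q₁ ≠ q₂) : False := by
  rcases (h.web i).two_opp h1 h2 h12 k1 k2 k12 with ⟨f, g⟩ | ⟨f, g⟩
  · exact h.kill22 h12 f g
  · exact h.swap.kill22 k12 f g

/-- no `P`-vertex is full -/
theorem WebH.noFull (h : WebH E P Q o) {i : ι} {v c₁ c₂ c₃ : ℂ}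
    (f : FullV (P i) (Q i) v c₁ c₂ c₃) : False := by
  have hw := h.web i
  have one : ∀ {a b c : ℂ}, FullV (P i) (Q i) v a b c → ∀ v', P i a v' → v' = v := by
    intro a b c g v' hv'
    by_contra hne
    have hq : a + b - v ≠ a + c - v := by
      intro hc; apply g.n23; linear_combination hc
    exact h.no22 g.h1 hv' (Ne.symm hne) g.q12 g.q13 hq
  have key : ∀ {a b c : ℂ}, FullV (P i) (Q i) v a b c → dt (b - v) (c - v) < -(1 / 2) := by
    intro a b c g
    have := (h.wide g (one g)).1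
    have e1 : a + b - v - a = b - v := by ring
    have e2 : a + c - v - a = c - v := by ring
    rwa [e1, e2] at this
  have k1 := key f
  have k2 := key (f.rot hw)
  have k3 := key ((f.rot hw).rot hw)
  have u1 := h.unP f.h1
  have u2 := h.unP f.h2
  have u3 := h.unP f.h3
  unfold dt at *
  simp only [Complex.sub_re, Complex.sub_im] at *
  nlinarith [sq_nonneg ((c₁.re - v.re) + (c₂.re - v.re) + (c₃.re - v.re)),
    sq_nonneg ((c₁.im - v.im) + (c₂.im - v.im) + (c₃.im - v.im))]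

/-- no `Q`-vertex is full -/
theorem WebH.noFull' (h : WebH E P Q o) {i : ι} {v c₁ c₂ c₃ : ℂ}
    (f : FullV (Q i) (P i) v c₁ c₂ c₃) : False := h.swap.noFull f

/-- the second centre of a centre with two `Q`-ends has one `Q`-end -/
theorem WebH.second (h : WebH E P Q o) {i : ι} {z v q q' s : ℂ} (hv : P i z v) (hq : Q i z q)
    (hq' : Q i z q') (hne : q ≠ q') (hs : Q i (v + q - z) s) : s = q := by
  by_contra hc
  exact h.noFull ((h.web i).full_of hv hq hq' hne hs hc)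

/-- a single end strictly between the two others is wide -/
theorem WebH.opp_wide (h : WebH E P Q o) {i : ι} {z v q q' : ℂ} (hv : P i z v) (hq : Q i z q)
    (hq' : Q i z q') (hne : q ≠ q') (hs : ∀ v', P i z v' → v' = v)
    (ho : Opp (v - z) (q - z) (q' - z)) : Wide E (o i) z v q q' := by
  rcases h.f2P hv hq hq' hne hs ho with ⟨j, hj⟩ | hj
  · exact ((h.web j).no_bad hj).elim
  · exact hj

end Vale.Agent.P032.Net
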