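import Vale.Agent.P032.Net.D3

/-!
# P032: the rhombus network, step (2): middle centres

`Mid P Q v M q q'`: `M` is the middle centre of the `P`-vertex `v`; its only `P`-end is `v` and its
`Q`-ends are exactly `q ≠ q'`.
-/

namespace Vale.Agent.P032.Net

variable {P Q : ℂ → ℂ → Prop}

/-- the other common centre of an edge -/
theorem Web.other (h : Web P Q) {z v q : ℂ} (hv : P z v) (hq : Q z q) :
    P (v + q - z) v ∧ Q (v + q - z) q ∧ z ≠ v + q - z := by
  obtain ⟨a, b, c⟩ := h.rh hv hq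
  refine ⟨b, c, fun hc => a ?_⟩
  linear_combination -hc

/-- **a `Q`-vertex has at most two neighbours**: if `q` is the end of `z`, `w₁ = v₁ + q - z`,
`w₂ = v₂ + q - z`, then the only `P`-end of `w₁` is `v₁`. -/
theorem Web.only (h : Web P Q) {z v₁ v₂ q : ℂ} (h1 : P z v₁) (h2 : P z v₂) (h12 : v₁ ≠ v₂)
    (hq : Q z q) {x : ℂ} (hx : P (v₁ + q - z) x) : x = v₁ := by
  by_contra hne
  obtain ⟨a1, a2, a3⟩ := h.other h1 hq
  obtain ⟨b1, b2, b3⟩ := h.other h2 hq
  obtain ⟨c1, c2, c3⟩ := h.rh hx a2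
  have hww : v₁ + q - z ≠ v₂ + q - z := by
    intro hc; apply h12; linear_combination hc
  rcases h.threeQ hq a2 b2 c3 a3 b3 hww with hc | hc | hc
  · exact hne (by linear_combination hc)
  · exact c1 (by linear_combination hc)
  · rw [hc] at c2
    refine h.swap.d3 (v := q) (c₁ := z) (c₂ := v₁ + q - z) (c₃ := v₂ + q - z) hq a2 b2 a3 b3 hww
      ?_ ?_ ?_
    · have e : z + (v₁ + q - z) - q = v₁ := by ring
      rw [e]; exact h1
    · have e : z + (v₂ + q - z) - q = v₂ := by ring
      rw [e]; exact h2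
    · have e : v₁ + q - z + (v₂ + q - z) - q = x := by linear_combination -hc
      rw [e]; exact hx

/-- a centre with a `Q`-end has at most two `P`-ends -/
theorem Web.le_two (h : Web P Q) {z v₁ v₂ v₃ q : ℂ} (h1 : P z v₁) (h2 : P z v₂) (h12 : v₁ ≠ v₂)
    (hq : Q z q) (h3 : P z v₃) : v₃ = v₁ ∨ v₃ = v₂ := by
  obtain ⟨a1, a2, a3⟩ := h.other h1 hq
  obtain ⟨b1, b2, b3⟩ := h.other h2 hq
  obtain ⟨c1, c2, c3⟩ := h.other h3 hq
  have hww : v₁ + q - z ≠ v₂ + q - z := by
    intro hc; apply h12; linear_combination hc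
  rcases h.threeQ hq a2 b2 c2 a3 b3 hww with hc | hc | hc
  · exact absurd hc.symm c3
  · left; linear_combination hc
  · right; linear_combination hc

/-- **no (2,2) centre** -/
theorem Web.no22 (h : Web P Q) {z v₁ v₂ q₁ q₂ : ℂ} (h1 : P z v₁) (h2 : P z v₂) (h12 : v₁ ≠ v₂)
    (k1 : Q z q₁) (k2 : Q z q₂) (k12 : q₁ ≠ q₂) : False := by
  obtain ⟨a1, a2, a3⟩ := h.other h1 k1
  refine h.L2 a1 a2 (fun x hx => h.only h1 h2 h12 k1 hx) fun s hs => ?_
  rw [add_comm v₁ q₁] at hs
  exact h.swap.only k1 k2 k12 h1 hs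

/-- `M` is the middle centre of the `P`-vertex `v`, with `Q`-ends `q`, `q'`. -/
structure Mid (P Q : ℂ → ℂ → Prop) (v M q q' : ℂ) : Prop where
  hv : P M v
  hq : Q M q
  hq' : Q M q'
  ne : q ≠ q'
  onlyP : ∀ x, P M x → x = v
  onlyQ : ∀ s, Q M s → s = q ∨ s = q'

theorem Mid.symm {v M q q' : ℂ} (m : Mid P Q v M q q') : Mid P Q v M q' q :=
  ⟨m.hv, m.hq', m.hq, m.ne.symm, m.onlyP, fun s hs => (m.onlyQ s hs).symm⟩

/-- a centre with exactly one `P`-end and at least one `Q`-end is a middle centre -/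
theorem Web.mid_of_only (h : Web P Q) {z v q : ℂ} (hv : P z v) (hq : Q z q)
    (ho : ∀ x, P z x → x = v) : ∃ q', Mid P Q v z q q' := by
  have h2 : ¬ ∀ s, Q z s → s = q := fun hall => h.L2 hv hq ho hall
  push Not at h2
  obtain ⟨q', hq', hne⟩ := h2
  exact ⟨q', hv, hq, hq', hne.symm, ho, fun s hs => h.swap.le_two hq hq' hne.symm hv hs⟩

/-- **every vertex of the network has a middle centre** -/
theorem Web.mid (h : Web P Q) {z v q : ℂ} (hv : P z v) (hq : Q z q) :
    ∃ M q', Mid P Q v M q q' ∧ (M = z ∨ M = v + q - z) := by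
  by_cases ho : ∀ x, P z x → x = v
  · obtain ⟨q', m⟩ := h.mid_of_only hv hq ho
    exact ⟨z, q', m, Or.inl rfl⟩
  · push Not at ho
    obtain ⟨v', hv', hne⟩ := ho
    obtain ⟨a1, a2, a3⟩ := h.other hv hq
    obtain ⟨q', m⟩ := h.mid_of_only a1 a2 fun x hx => h.only hv hv' hne.symm hq hx
    exact ⟨_, q', m, Or.inr rfl⟩

/-- the three centres of a vertex -/
theorem Mid.centres (h : Web P Q) {v M q q' : ℂ} (m : Mid P Q v M q q') :
    P (v + q - M) v ∧ P (v + q' - M) v ∧ M ≠ v + q - M ∧ M ≠ v + q' - M ∧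
      v + q - M ≠ v + q' - M ∧ ∀ d, P d v → d = M ∨ d = v + q - M ∨ d = v + q' - M := by
  obtain ⟨a1, a2, a3⟩ := h.other m.hv m.hq
  obtain ⟨b1, b2, b3⟩ := h.other m.hv m.hq'
  have hne : v + q - M ≠ v + q' - M := by
    intro hc; apply m.ne; linear_combination hc
  exact ⟨a1, b1, a3, b3, hne, fun d hd => h.threeP m.hv a1 b1 hd a3 b3 hne⟩

/-- **the ribbon**: the side centre `N = v + q - M` of `v` is the middle centre of `q`. -/
theorem Mid.next (h : Web P Q) {v M q q' : ℂ} (m : Mid P Q v M q q') :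
    ∃ v', Mid Q P q (v + q - M) v v' := by
  obtain ⟨a1, a2, a3⟩ := h.other m.hv m.hq
  refine h.swap.mid_of_only a2 a1 fun s hs => ?_
  rw [add_comm v q] at hs
  exact h.swap.only m.hq m.hq' m.ne m.hv hs

/-- a middle centre of `v` is unique -/
theorem Mid.uniq (h : Web P Q) {v M q q' M' r r' : ℂ} (m : Mid P Q v M q q')
    (m' : Mid P Q v M' r r') : M' = M := by
  obtain ⟨-, -, -, -, -, hall⟩ := m.centres h
  have hN : ∀ {p p' : ℂ}, Mid P Q v M p p' → M' = v + p - M → False := by
    intro p p' n e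
    obtain ⟨x, mm⟩ := n.next h
    rw [← e] at mm
    rcases mm.onlyP r m'.hq with rfl
    exact m'.ne (mm.onlyP r' m'.hq').symm
  rcases hall M' m'.hv with e | e | e
  · exact e
  · exact (hN m e).elim
  · exact (hN m.symm e).elim

/-- (L3) at the middle centre: with `g = M - v`, `a = q - M = N - v`, `b = q' - M = N' - v` -/
theorem Mid.signs (h : Web P Q) {v M q q' : ℂ} (m : Mid P Q v M q q') :
    0 < det (q - M) (M - v) * det (M - v) (q' - M) ∧
      0 < det (q - M) (M - v) * det (q - M) (q' - M) ∧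
      0 < det (M - v) (q' - M) * det (q - M) (q' - M) := by
  obtain ⟨h1, h2⟩ := h.L3 m.hv m.hq m.hq' m.ne m.onlyP m.onlyQ
  have e1 : det (v - M) (q - M) = det (q - M) (M - v) := by
    simp only [det, Complex.sub_re, Complex.sub_im]; ring
  have e2 : det (q' - M) (v - M) = det (M - v) (q' - M) := by
    simp only [det, Complex.sub_re, Complex.sub_im]; ring
  rw [e1] at h1
  rw [e2] at h2
  refine ⟨?_, h1, by rwa [mul_comm] at h2⟩
  have h3 := mul_pos h1 h2
  have h4 : det (q - M) (M - v) * det (q - M) (q' - M) * (det (q - M) (q' - M) *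
      det (M - v) (q' - M)) = det (q - M) (M - v) * det (M - v) (q' - M) *
        (det (q - M) (q' - M)) ^ 2 := by ring
  rw [h4] at h3
  by_contra hc
  exact absurd (mul_nonpos_of_nonpos_of_nonneg (not_lt.1 hc) (sq_nonneg _)) (not_le.2 h3)

/-- the middle direction is a positive combination of the two side directions -/
theorem Mid.combo (h : Web P Q) {v M q q' : ℂ} (m : Mid P Q v M q q') :
    ∃ α β : ℝ, 0 < α ∧ 0 < β ∧ M - v = α * (q - M) + β * (q' - M) ∧ det (q - M) (q' - M) ≠ 0 := by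
  obtain ⟨h1, h2, h3⟩ := m.signs h
  set a := q - M
  set b := q' - M
  set g := M - v
  have hD : det a b ≠ 0 := by
    intro hc
    rw [hc, mul_zero] at h2
    exact lt_irrefl _ h2
  refine ⟨det g b / det a b, det a g / det a b, ?_, ?_, ?_, hD⟩
  · rw [div_eq_mul_inv]
    have : 0 < (det g b * det a b) * (det a b)⁻¹ ^ 2 := mul_pos h3 (by positivity)
    calc 0 < (det g b * det a b) * (det a b)⁻¹ ^ 2 := this
      _ = det g b * (det a b)⁻¹ := by field_simp
  · rw [div_eq_mul_inv]
    have : 0 < (det a g * det a b) * (det a b)⁻¹ ^ 2 := mul_pos h2 (by positivity)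
    calc 0 < (det a g * det a b) * (det a b)⁻¹ ^ 2 := this
      _ = det a g * (det a b)⁻¹ := by field_simp
  · have hD' : ((det a b : ℝ) : ℂ) ≠ 0 := by exact_mod_cast hD
    apply Complex.ext
    · simp only [Complex.add_re, Complex.mul_re, Complex.ofReal_re, Complex.ofReal_im, zero_mul,
        sub_zero]
      field_simp
      simp only [det]; ring
    · simp only [Complex.add_im, Complex.mul_im, Complex.ofReal_re, Complex.ofReal_im, zero_mul,
        add_zero]
      field_simp
      simp only [det]; ring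

/-- the next vertex `v'` of the ribbon lies on the side of `N` of the line through `v` with
direction `g = M - v` -/
theorem Mid.side (h : Web P Q) {v M q q' v' : ℂ} (m : Mid P Q v M q q')
    (n : Mid Q P q (v + q - M) v v') :
    0 < det (M - v) (v' - v) * det (M - v) (q - M) := by
  obtain ⟨h1, h2, h3⟩ := n.signs h.swap
  -- at `N = v + q - M`: `N - q = v - M`, `v - N = M - q`
  have e1 : v - (v + q - M) = -(q - M) := by ring
  have e2 : v + q - M - q = -(M - v) := by ring
  have e3 : v' - (v + q - M) = v' - v - (q - M) := by ring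
  rw [e1, e2, e3] at h1 h2 h3
  generalize M - v = g at *
  generalize q - M = a at *
  generalize v' - v = w at *
  -- h1 : 0 < det (-a) (-g) * det (-g) (w - a)
  have f1 : det (-a) (-g) * det (-g) (w - a) = det g a * det g w - det g a ^ 2 := by
    simp only [det, Complex.neg_re, Complex.neg_im, Complex.sub_re, Complex.sub_im]; ring
  rw [f1] at h1
  nlinarith [sq_nonneg (det g a)]

/-- the two next vertices lie on different sides of the line through `v` with direction `M - v` -/
theorem Mid.sides (h : Web P Q) {v M q q' v₁ v₂ : ℂ} (m : Mid P Q v M q q')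
    (n₁ : Mid Q P q (v + q - M) v v₁) (n₂ : Mid Q P q' (v + q' - M) v v₂) :
    det (M - v) (v₁ - v) * det (M - v) (v₂ - v) < 0 := by
  have s1 := m.side h n₁
  have s2 := m.symm.side h n₂
  obtain ⟨h1, -, -⟩ := m.signs h
  have e : det (q - M) (M - v) = -det (M - v) (q - M) := by simp only [det]; ring
  rw [e] at h1
  generalize det (M - v) (v₁ - v) = x at *
  generalize det (M - v) (v₂ - v) = y at *
  generalize det (M - v) (q - M) = s at *
  generalize det (M - v) (q' - M) = t at *
  -- 0 < x s, 0 < y t, 0 < - s t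
  by_contra hc
  push Not at hc
  have h4 : 0 < (x * s) * (y * t) := mul_pos s1 s2
  nlinarith [mul_pos h1 (show (0:ℝ) < 1 by norm_num), mul_nonneg hc (le_of_lt h1)]

theorem Mid.sides_ne (h : Web P Q) {v M q q' v₁ v₂ : ℂ} (m : Mid P Q v M q q')
    (n₁ : Mid Q P q (v + q - M) v v₁) (n₂ : Mid Q P q' (v + q' - M) v v₂) : v₁ ≠ v₂ := by
  intro hc
  have := m.sides h n₁ n₂
  rw [hc] at this
  nlinarith [mul_self_nonneg (det (M - v) (v₂ - v))]

end Vale.Agent.P032.Net
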