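import Vale.Agent.P032.Net.Beta

/-!
# P032: the rhombus networks when centres may have beta or EQ ends

Only clean ends are counted. `P z v`: `v` is a clean `X`-end of `S(z)`; `Q z q`: `q` is a clean
`Xᶜ`-end of `S(z)`; `o z v = ± 1` is the orientation of the arc of `S(z)` at its clean end `v`
(`+ 1`: the arc is `v e^{-it}`).

* `s12`: at a centre with counts `(1,2)` the two ends of one type are on different sides of the line
  of the single end of the other type;
* `outP`, `outQ`: at a centre with counts `(1,1)` the two arcs point away from each other;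
* `lp3P`, `lp3Q`: the three edges at a vertex are in no open half plane.
-/

namespace Vale.Agent.P032.Net

/-- `t` is strictly between `k` and `l` -/
def Opp (t k l : ℂ) : Prop := 0 < det k t * det t l ∧ 0 < det k t * det k l

structure Web1 (P Q : ℂ → ℂ → Prop) (o : ℂ → ℂ → ℝ) : Prop where
  rh : ∀ {z v q : ℂ}, P z v → Q z q → v + q ≠ 2 * z ∧ P (v + q - z) v ∧ Q (v + q - z) q
  threeP : ∀ {v a b c d : ℂ}, P a v → P b v → P c v → P d v → (∃ q, Q a q) → (∃ q, Q b q) →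
    (∃ q, Q c q) → (∃ q, Q d q) → a ≠ b → a ≠ c → b ≠ c → d = a ∨ d = b ∨ d = c
  threeQ : ∀ {v a b c d : ℂ}, Q a v → Q b v → Q c v → Q d v → (∃ q, P a q) → (∃ q, P b q) →
    (∃ q, P c q) → (∃ q, P d q) → a ≠ b → a ≠ c → b ≠ c → d = a ∨ d = b ∨ d = c
  sep : ∀ {z v v' q q' : ℂ}, P z v → P z v' → Q z q → Q z q' →
    0 < det (v - z) (q - z) * det (v - z) (q' - z) *
      (det (v' - z) (q - z) * det (v' - z) (q' - z))
  s12 : ∀ {z v q q' : ℂ}, P z v → Q z q → Q z q' → q ≠ q' → (∀ v', P z v' → v' = v) →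
    (∀ s, Q z s → s = q ∨ s = q') → det (v - z) (q - z) * det (v - z) (q' - z) < 0
  s21 : ∀ {z v q q' : ℂ}, Q z v → P z q → P z q' → q ≠ q' → (∀ v', Q z v' → v' = v) →
    (∀ s, P z s → s = q ∨ s = q') → det (v - z) (q - z) * det (v - z) (q' - z) < 0
  outP : ∀ {z v q : ℂ}, P z v → Q z q → (∀ v', P z v' → v' = v) → (∀ q', Q z q' → q' = q) →
    0 < o z v * det (v - z) (q - z)
  outQ : ∀ {z v q : ℂ}, P z v → Q z q → (∀ v', P z v' → v' = v) → (∀ q', Q z q' → q' = q) →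
    0 < o z q * det (q - z) (v - z)
  lp3P : ∀ {z v q c p : ℂ}, P z v → Q z q → P c v → Q c p → c ≠ z → c ≠ v + q - z →
    ∃ a b : ℝ, 0 ≤ a ∧ 0 ≤ b ∧ (o c v : ℂ) * (c - v) + a * (o z v * (z - v)) +
      b * (o (v + q - z) v * (q - z)) = 0
  lp3Q : ∀ {z v q c p : ℂ}, Q z v → P z q → Q c v → P c p → c ≠ z → c ≠ v + q - z →
    ∃ a b : ℝ, 0 ≤ a ∧ 0 ≤ b ∧ (o c v : ℂ) * (c - v) + a * (o z v * (z - v)) +
      b * (o (v + q - z) v * (q - z)) = 0

variable {P Q : ℂ → ℂ → Prop} {o : ℂ → ℂ → ℝ}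

theorem Web1.swap (h : Web1 P Q o) : Web1 Q P o where
  rh {z v q} h1 h2 := by
    obtain ⟨a, b, c⟩ := h.rh h2 h1
    rw [add_comm q v] at a b c
    exact ⟨a, c, b⟩
  threeP := h.threeQ
  threeQ := h.threeP
  sep {z v v' q q'} h1 h2 h3 h4 := by
    have h5 := h.sep h3 h4 h1 h2
    have e : det (v - z) (q - z) * det (v - z) (q' - z) *
        (det (v' - z) (q - z) * det (v' - z) (q' - z)) =
        det (q - z) (v - z) * det (q - z) (v' - z) *
          (det (q' - z) (v - z) * det (q' - z) (v' - z)) := by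
      simp only [det]; ring
    rw [e]; exact h5
  s12 := h.s21
  s21 := h.s12
  outP h1 h2 h3 h4 := h.outQ h2 h1 h4 h3
  outQ h1 h2 h3 h4 := h.outP h2 h1 h4 h3
  lp3P := h.lp3Q
  lp3Q := h.lp3P

/-- the second common centre, with the other ends -/
theorem Web1.rot (h : Web1 P Q o) {v c₁ c₂ : ℂ} (h1 : P c₁ v) (q12 : Q c₁ (c₁ + c₂ - v)) :
    Q c₂ (c₁ + c₂ - v) := by
  have := (h.rh h1 q12).2.2
  have e2 : v + (c₁ + c₂ - v) - c₁ = c₂ := by ring
  rwa [e2] at this

/-- the other common centre of an edge -/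
theorem Web1.other (h : Web1 P Q o) {z v q : ℂ} (hv : P z v) (hq : Q z q) :
    P (v + q - z) v ∧ Q (v + q - z) q ∧ z ≠ v + q - z := by
  obtain ⟨a, b, c⟩ := h.rh hv hq
  refine ⟨b, c, fun hc => a ?_⟩
  linear_combination -hc

theorem Web1.le_two (h : Web1 P Q o) {z v₁ v₂ v₃ q : ℂ} (h1 : P z v₁) (h2 : P z v₂)
    (h12 : v₁ ≠ v₂) (hq : Q z q) (h3 : P z v₃) : v₃ = v₁ ∨ v₃ = v₂ := by
  obtain ⟨a1, a2, a3⟩ := h.other h1 hq
  obtain ⟨b1, b2, b3⟩ := h.other h2 hq
  obtain ⟨c1, c2, c3⟩ := h.other h3 hq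
  have hww : v₁ + q - z ≠ v₂ + q - z := by
    intro hc; apply h12; linear_combination hc
  rcases h.threeQ hq a2 b2 c2 ⟨_, h1⟩ ⟨_, a1⟩ ⟨_, b1⟩ ⟨_, c1⟩ a3 b3 hww with hc | hc | hc
  · exact absurd hc.symm c3
  · left; linear_combination hc
  · right; linear_combination hc

/-- the second ends of two centres of an edge are parallel -/
theorem Web1.par (h : Web1 P Q o) {v c₁ c₂ x y : ℂ} (h1 : P c₁ v) (h2 : P c₂ v) (h12 : c₁ ≠ c₂)
    (hq : Q c₁ (c₁ + c₂ - v)) (hx : P c₁ x) (hxv : x ≠ v) (hy : P c₂ y) (hyv : y ≠ v) :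
    x - c₁ = y - c₂ := by
  have hq2 : Q c₂ (c₁ + c₂ - v) := h.rot h1 hq
  obtain ⟨a1, a2, a3⟩ := h.rh hx hq
  obtain ⟨b1, b2, b3⟩ := h.rh hy hq2
  have hr1 : c₁ ≠ x + (c₁ + c₂ - v) - c₁ := by
    intro hc
    apply a1
    linear_combination -hc
  have hr2 : c₂ ≠ x + (c₁ + c₂ - v) - c₁ := by
    intro hc
    apply hxv
    linear_combination -hc
  rcases h.threeQ hq hq2 a3 b3 ⟨_, h1⟩ ⟨_, h2⟩ ⟨_, a2⟩ ⟨_, b2⟩ h12 hr1 hr2 with hc | hc | hc
  · exact absurd (by linear_combination hc) hyv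
  · exact absurd (by linear_combination hc) b1
  · linear_combination -hc

/-- **at most one centre of a full vertex has two ends** (no use of (L2)) -/
theorem Web1.two_two (h : Web1 P Q o) {v c₁ c₂ c₃ : ℂ} (h1 : P c₁ v) (h2 : P c₂ v) (h3 : P c₃ v)
    (h12 : c₁ ≠ c₂) (h13 : c₁ ≠ c₃) (h23 : c₂ ≠ c₃)
    (q12 : Q c₁ (c₁ + c₂ - v)) (q13 : Q c₁ (c₁ + c₃ - v)) (q23 : Q c₂ (c₂ + c₃ - v))
    {n : ℂ} (hn1 : P c₁ (c₁ + n)) (hn1v : c₁ + n ≠ v) (hn2 : P c₂ (c₂ + n)) (hn2v : c₂ + n ≠ v) :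
    False := by
  have q21 : Q c₂ (c₁ + c₂ - v) := h.rot h1 q12
  have q31 : Q c₃ (c₁ + c₃ - v) := h.rot h1 q13
  have q32 : Q c₃ (c₂ + c₃ - v) := h.rot h2 q23
  -- separation at `c₁`, `c₂`
  have s1 : Sp (c₁ - v) n (c₂ - v) (c₃ - v) := by
    have := h.sep h1 hn1 q12 q13
    have e1 : c₁ + c₂ - v - c₁ = c₂ - v := by ring
    have e2 : c₁ + c₃ - v - c₁ = c₃ - v := by ring
    have e3 : v - c₁ = -(c₁ - v) := by ring
    have e4 : c₁ + n - c₁ = n := by ring
    rw [e1, e2, e3, e4] at this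
    exact Sp.neg1 this
  have s2 : Sp (c₂ - v) n (c₁ - v) (c₃ - v) := by
    have := h.sep h2 hn2 q21 q23
    have e1 : c₁ + c₂ - v - c₂ = c₁ - v := by ring
    have e2 : c₂ + c₃ - v - c₂ = c₃ - v := by ring
    have e3 : v - c₂ = -(c₂ - v) := by ring
    have e4 : c₂ + n - c₂ = n := by ring
    rw [e1, e2, e3, e4] at this
    exact Sp.neg1 this
  by_cases o3 : ∀ v', P c₃ v' → v' = v
  · -- the centres `r₁₂`, `r₁₃`
    obtain ⟨a1, a2, a3⟩ := h.rh hn1 q12
    obtain ⟨b1, b2, b3⟩ := h.rh hn1 q13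
    obtain ⟨d1, d2, d3⟩ := h.rh hn2 q21
    have er12 : c₁ + n + (c₁ + c₂ - v) - c₁ = c₁ + c₂ - v + n := by ring
    have er13 : c₁ + n + (c₁ + c₃ - v) - c₁ = c₁ + c₃ - v + n := by ring
    have er21 : c₂ + n + (c₁ + c₂ - v) - c₂ = c₁ + c₂ - v + n := by ring
    rw [er12] at a2 a3
    rw [er13] at b2 b3
    rw [er21] at d2 d3
    -- `r₁₃` is different from `c₁` and `c₃`
    have r1 : c₁ ≠ c₁ + c₃ - v + n := by
      intro hc; apply b1; linear_combination -hc
    have r3 : c₃ ≠ c₁ + c₃ - v + n := by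
      intro hc; apply hn1v; linear_combination -hc
    have t1 : c₁ ≠ c₁ + c₂ - v + n := by
      intro hc; apply a1; linear_combination -hc
    have t2 : c₁ + c₂ - v + n ≠ c₁ + c₃ - v + n := by
      intro hc; apply h23; linear_combination hc
    -- the only `Q`-end of `r₁₃`
    have k13 : ∀ s, Q (c₁ + c₃ - v + n) s → s = c₁ + c₃ - v := by
      intro s hs
      by_contra hsne
      obtain ⟨g1, g2, g3⟩ := h.rh b2 hs
      rcases h.threeP hn1 a2 b2 g2 ⟨_, q12⟩ ⟨_, a3⟩ ⟨_, b3⟩ ⟨_, g3⟩ t1 r1 t2 with hc | hc | hc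
      · exact hsne (by linear_combination hc)
      · -- `s = v + u₁ + u₂ + u₃ + n`
        rw [hc] at g3
        have s3 := h.sep a2 d2 d3 g3
        have e1 : c₁ + n - (c₁ + c₂ - v + n) = -(c₂ - v) := by ring
        have e2 : c₂ + n - (c₁ + c₂ - v + n) = -(c₁ - v) := by ring
        have e3 : c₁ + c₂ - v - (c₁ + c₂ - v + n) = -n := by ring
        have e4 : s - (c₁ + c₂ - v + n) = c₃ - v := by linear_combination hc
        rw [e1, e2, e3, e4] at s3
        have s3' : Sp (c₂ - v) (c₁ - v) n (c₃ - v) := (Sp.neg1 (Sp.neg2 (Sp.neg3 s3)))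
        -- the three pairings of `n, u₁, u₂, u₃`
        refine three_pairings (a := n) (b := c₁ - v) (c := c₂ - v) (d := c₃ - v) s1.comm s2.comm ?_
        exact s3'.swap.comm'
      · exact absurd (by linear_combination hc) g1
    -- the only `Q`-end of `r₁₂`
    have k12 : ∀ s, Q (c₁ + c₂ - v + n) s → s = c₁ + c₂ - v := by
      intro s hs
      obtain ⟨g1, g2, g3⟩ := h.rh a2 hs
      rcases h.threeP hn1 a2 b2 g2 ⟨_, q12⟩ ⟨_, a3⟩ ⟨_, b3⟩ ⟨_, g3⟩ t1 r1 t2 with hc | hc | hc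
      · linear_combination hc
      · exact absurd (by linear_combination hc) g1
      · rw [hc] at g3
        have hs2 := k13 s g3
        exfalso
        apply t1
        linear_combination hc - hs2
    -- `r₁₂` is a (2,1) centre
    have hnv : c₁ + n ≠ c₂ + n := by
      intro hc; apply h12; linear_combination hc
    have x1 := h.s21 a3 a2 d2 hnv k12 fun s hs => h.le_two a2 d2 hnv a3 hs
    -- `c₃` is a (1,2) centre
    have hqq : c₁ + c₃ - v ≠ c₂ + c₃ - v := by
      intro hc; apply h12; linear_combination hc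
    have x2 := h.s12 h3 q31 q32 hqq o3 fun s hs => h.swap.le_two q31 q32 hqq h3 hs
    have e1 : c₁ + c₂ - v - (c₁ + c₂ - v + n) = -n := by ring
    have e2 : c₁ + n - (c₁ + c₂ - v + n) = -(c₂ - v) := by ring
    have e3 : c₂ + n - (c₁ + c₂ - v + n) = -(c₁ - v) := by ring
    have e4 : v - c₃ = -(c₃ - v) := by ring
    have e5 : c₁ + c₃ - v - c₃ = c₁ - v := by ring
    have e6 : c₂ + c₃ - v - c₃ = c₂ - v := by ring
    rw [e1, e2, e3] at x1
    rw [e4, e5, e6] at x2
    unfold Sp at s1 s2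
    simp only [det_neg_l, det_neg_r] at x1 x2
    rw [det_comm (c₃ - v) (c₁ - v), det_comm (c₃ - v) (c₂ - v)] at x2
    rw [det_comm n (c₂ - v), det_comm n (c₁ - v)] at x1
    rw [det_comm n (c₂ - v), det_comm n (c₃ - v)] at s1
    rw [det_comm n (c₁ - v), det_comm n (c₃ - v), det_comm (c₂ - v) (c₁ - v)] at s2
    generalize det (c₁ - v) (c₂ - v) = a at *
    generalize det (c₁ - v) (c₃ - v) = b at *
    generalize det (c₂ - v) (c₃ - v) = c at *
    generalize det (c₁ - v) n = d at *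
    generalize det (c₂ - v) n = e at *
    generalize det (c₃ - v) n = f at *
    have y1 : e * d < 0 := by linarith
    have y2 : b * c < 0 := by linarith
    have y3 : 0 < a * b * (e * f) := by linarith
    have y4 : 0 < -(a * c * (d * f)) := by linarith
    have y5 := mul_pos y3 y4
    have y6 : 0 < (e * d) * (b * c) := mul_pos_of_neg_of_neg y1 y2
    have y7 : a * b * (e * f) * -(a * c * (d * f)) = -((a * f) ^ 2 * ((e * d) * (b * c))) := by ring
    rw [y7] at y5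
    have y8 := mul_nonneg (sq_nonneg (a * f)) y6.le
    linarith
  · push Not at o3
    obtain ⟨x, hx, hxv⟩ := o3
    have e := h.par h1 h3 h13 q13 hn1 hn1v hx hxv
    have hxe : x = c₃ + n := by linear_combination -e
    subst hxe
    have s3 : Sp (c₃ - v) n (c₁ - v) (c₂ - v) := by
      have := h.sep h3 hx q31 q32
      have e1 : c₁ + c₃ - v - c₃ = c₁ - v := by ring
      have e2 : c₂ + c₃ - v - c₃ = c₂ - v := by ring
      have e3 : v - c₃ = -(c₃ - v) := by ring
      have e4 : c₃ + n - c₃ = n := by ring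
      rw [e1, e2, e3, e4] at this
      exact Sp.neg1 this
    exact three_pairings s1.comm s2.comm s3.comm

/-- `v` is a full vertex with the centres `c₁, c₂, c₃` -/
structure FullV (P Q : ℂ → ℂ → Prop) (v c₁ c₂ c₃ : ℂ) : Prop where
  h1 : P c₁ v
  h2 : P c₂ v
  h3 : P c₃ v
  n12 : c₁ ≠ c₂
  n13 : c₁ ≠ c₃
  n23 : c₂ ≠ c₃
  q12 : Q c₁ (c₁ + c₂ - v)
  q13 : Q c₁ (c₁ + c₃ - v)
  q23 : Q c₂ (c₂ + c₃ - v)

theorem FullV.rot (h : Web1 P Q o) {v c₁ c₂ c₃ : ℂ} (f : FullV P Q v c₁ c₂ c₃) :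
    FullV P Q v c₂ c₃ c₁ where
  h1 := f.h2
  h2 := f.h3
  h3 := f.h1
  n12 := f.n23
  n13 := f.n12.symm
  n23 := f.n13.symm
  q12 := f.q23
  q13 := by rw [add_comm c₂ c₁]; exact h.rot f.h1 f.q12
  q23 := by rw [add_comm c₃ c₁]; exact h.rot f.h1 f.q13

theorem FullV.two (h : Web1 P Q o) {v c₁ c₂ c₃ : ℂ} (f : FullV P Q v c₁ c₂ c₃)
    (oa : ¬ ∀ v', P c₁ v' → v' = v) (ob : ¬ ∀ v', P c₂ v' → v' = v) : False := by
  push Not at oa ob
  obtain ⟨x, hx, hxv⟩ := oa
  obtain ⟨y, hy, hyv⟩ := ob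
  have e := h.par f.h1 f.h2 f.n12 f.q12 hx hxv hy hyv
  have ex : x = c₁ + (x - c₁) := by ring
  have ey : y = c₂ + (x - c₁) := by linear_combination -e
  exact h.two_two f.h1 f.h2 f.h3 f.n12 f.n13 f.n23 f.q12 f.q13 f.q23 (n := x - c₁) (ex ▸ hx)
    (ex ▸ hxv) (ey ▸ hy) (ey ▸ hyv)

/-- the relation of two single centres of a full vertex -/
theorem FullV.single (h : Web1 P Q o) {v c₁ c₂ c₃ : ℂ} (f : FullV P Q v c₁ c₂ c₃)
    (oa : ∀ v', P c₁ v' → v' = v) :
    0 < det (c₁ - v) (c₂ - v) * det (c₃ - v) (c₁ - v) := by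
  have hne : c₁ + c₂ - v ≠ c₁ + c₃ - v := by
    intro hc; apply f.n23; linear_combination hc
  have x := h.s12 f.h1 f.q12 f.q13 hne oa fun s hs => h.swap.le_two f.q12 f.q13 hne f.h1 hs
  have e1 : c₁ + c₂ - v - c₁ = c₂ - v := by ring
  have e2 : c₁ + c₃ - v - c₁ = c₃ - v := by ring
  have e3 : v - c₁ = -(c₁ - v) := by ring
  rw [e1, e2, e3] at x
  simp only [det_neg_l] at x
  rw [det_comm (c₁ - v) (c₃ - v)] at x
  linarith

/-- the three directions at a full vertex surround the origin -/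
theorem FullV.surround (h : Web1 P Q o) {v c₁ c₂ c₃ : ℂ} (f : FullV P Q v c₁ c₂ c₃) :
    0 < det (c₁ - v) (c₂ - v) * det (c₂ - v) (c₃ - v) ∧
      0 < det (c₂ - v) (c₃ - v) * det (c₃ - v) (c₁ - v) ∧
        0 < det (c₁ - v) (c₂ - v) * det (c₃ - v) (c₁ - v) := by
  have key : ∀ {p q r : ℝ}, 0 < p * q → 0 < q * r → 0 < p * r := by
    intro p q r h1 h2
    have h3 := mul_pos h1 h2
    have h4 : p * q * (q * r) = q ^ 2 * (p * r) := by ring
    rw [h4] at h3
    by_contra hc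
    exact absurd (mul_nonpos_of_nonneg_of_nonpos (sq_nonneg q) (not_lt.1 hc)) (not_le.2 h3)
  have f2 := f.rot h
  have f3 := f2.rot h
  by_cases o1 : ∀ v', P c₁ v' → v' = v
  · have a1 := f.single h o1
    by_cases o2 : ∀ v', P c₂ v' → v' = v
    · have a2 := f2.single h o2
      -- p r > 0, q p > 0
      have a2' : 0 < det (c₁ - v) (c₂ - v) * det (c₂ - v) (c₃ - v) := by rwa [mul_comm] at a2
      refine ⟨a2', ?_, a1⟩
      exact key a2 a1
    · by_cases o3 : ∀ v', P c₃ v' → v' = v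
      · have a3 := f3.single h o3
        -- p r > 0, r q > 0
        have a3' : 0 < det (c₂ - v) (c₃ - v) * det (c₃ - v) (c₁ - v) := by rwa [mul_comm] at a3
        refine ⟨key a1 a3, a3', a1⟩
      · exact (f2.two h o2 o3).elim
  · by_cases o2 : ∀ v', P c₂ v' → v' = v
    · by_cases o3 : ∀ v', P c₃ v' → v' = v
      · have a2 := f2.single h o2
        have a3 := f3.single h o3
        have a2' : 0 < det (c₁ - v) (c₂ - v) * det (c₂ - v) (c₃ - v) := by rwa [mul_comm] at a2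
        have a3' : 0 < det (c₂ - v) (c₃ - v) * det (c₃ - v) (c₁ - v) := by rwa [mul_comm] at a3
        exact ⟨a2', a3', key a2' a3'⟩
      · exact (f3.two h o3 o1).elim
    · exact (f.two h o1 o2).elim

/-- every centre of a full vertex sees `Opp` -/
theorem FullV.opp (h : Web1 P Q o) {v c₁ c₂ c₃ : ℂ} (f : FullV P Q v c₁ c₂ c₃) :
    Opp (v - c₁) (c₂ - v) (c₃ - v) := by
  obtain ⟨h1, h2, h3⟩ := f.surround h
  have e3 : v - c₁ = -(c₁ - v) := by ring
  unfold Opp
  rw [e3]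
  simp only [det_neg_l, det_neg_r]
  rw [det_comm (c₂ - v) (c₁ - v), det_comm (c₁ - v) (c₃ - v)]
  constructor <;> linarith

/-- the full vertex given by a second end of a second centre -/
theorem Web1.full_of (h : Web1 P Q o) {z v q₁ q₂ s : ℂ} (hv : P z v) (h1 : Q z q₁) (h2 : Q z q₂)
    (h12 : q₁ ≠ q₂) (hs : Q (v + q₁ - z) s) (hs1 : s ≠ q₁) :
    FullV P Q v z (v + q₁ - z) (v + q₂ - z) := by
  obtain ⟨a1, a2, a3⟩ := h.other hv h1
  obtain ⟨b1, b2, b3⟩ := h.other hv h2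
  obtain ⟨c0, c1, c2⟩ := h.rh a1 hs
  have hww : v + q₁ - z ≠ v + q₂ - z := by
    intro hc; apply h12; linear_combination hc
  have hc : v + s - (v + q₁ - z) = v + q₂ - z := by
    rcases h.threeP hv a1 b1 c1 ⟨_, h1⟩ ⟨_, a2⟩ ⟨_, b2⟩ ⟨_, c2⟩ a3 b3 hww with hc | hc | hc
    · exact absurd (by linear_combination hc) hs1
    · exact absurd (by linear_combination hc) c0
    · exact hc
  refine ⟨hv, a1, b1, a3, b3, hww, ?_, ?_, ?_⟩
  · have e : z + (v + q₁ - z) - v = q₁ := by ring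
    rw [e]; exact h1
  · have e : z + (v + q₂ - z) - v = q₂ := by ring
    rw [e]; exact h2
  · have e : v + q₁ - z + (v + q₂ - z) - v = s := by linear_combination -hc
    rw [e]; exact hs

/-- **the kill**: the two second centres of a vertex of a centre are not both `(1,1)` -/
theorem Web1.kill (h : Web1 P Q o) {z v q₁ q₂ : ℂ} (hv : P z v) (h1 : Q z q₁) (h2 : Q z q₂)
    (h12 : q₁ ≠ q₂)
    (a : ∀ x, P (v + q₁ - z) x → x = v) (a' : ∀ x, Q (v + q₁ - z) x → x = q₁)
    (b : ∀ x, P (v + q₂ - z) x → x = v) (b' : ∀ x, Q (v + q₂ - z) x → x = q₂) : False := by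
  obtain ⟨a1, a2, a3⟩ := h.other hv h1
  obtain ⟨b1, b2, b3⟩ := h.other hv h2
  have hww : v + q₁ - z ≠ v + q₂ - z := by
    intro hc; apply h12; linear_combination hc
  have u1 := h.outP a1 a2 a a'
  have u2 := h.outP b1 b2 b b'
  obtain ⟨α, β, hα, hβ, hl⟩ := h.lp3P hv h1 b1 b2 b3.symm hww.symm
  have e1 : v - (v + q₁ - z) = -(q₁ - z) := by ring
  have e2 : q₁ - (v + q₁ - z) = -(v - z) := by ring
  have e3 : v - (v + q₂ - z) = -(q₂ - z) := by ring
  have e4 : q₂ - (v + q₂ - z) = -(v - z) := by ring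
  have e6 : v + q₂ - z - v = q₂ - z := by ring
  have e7 : z - v = -(v - z) := by ring
  rw [e1, e2] at u1
  rw [e3, e4] at u2
  rw [e6, e7] at hl
  simp only [det_neg_l, det_neg_r, neg_neg] at u1 u2
  -- take the determinant with `v - z`
  have hd := congrArg (fun w => det w (v - z)) hl
  have f2 : det ((o (v + q₂ - z) v : ℂ) * (q₂ - z) + α * (o z v * -(v - z)) +
      β * (o (v + q₁ - z) v * (q₁ - z))) (v - z) =
      o (v + q₂ - z) v * det (q₂ - z) (v - z) +
        β * (o (v + q₁ - z) v * det (q₁ - z) (v - z)) := by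
    simp only [det, Complex.mul_re, Complex.mul_im, Complex.ofReal_re, Complex.ofReal_im,
      Complex.neg_re, Complex.neg_im, Complex.add_re, Complex.add_im]
    ring
  have f3 : det 0 (v - z) = 0 := by simp [det]
  simp only [f2, f3] at hd
  have m2 := mul_nonneg hβ u1.le
  linarith

/-- at a centre with two ends of each type: both ends of one of the two types see `Opp`, and the
second centres over the first of them are single -/
theorem Web1.two_opp (h : Web1 P Q o) {z v₁ v₂ q₁ q₂ : ℂ} (h1 : P z v₁) (h2 : P z v₂)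
    (h12 : v₁ ≠ v₂) (k1 : Q z q₁) (k2 : Q z q₂) (k12 : q₁ ≠ q₂) :
    (FullV P Q v₁ z (v₁ + q₁ - z) (v₁ + q₂ - z) ∧ FullV P Q v₂ z (v₂ + q₁ - z) (v₂ + q₂ - z)) ∨
    (FullV Q P q₁ z (q₁ + v₁ - z) (q₁ + v₂ - z) ∧ FullV Q P q₂ z (q₂ + v₁ - z) (q₂ + v₂ - z)) := by
  -- fullness of a `P`-vertex and of a `Q`-vertex exclude each other
  have excl : ∀ {v q v' q' : ℂ}, P z v → P z v' → v ≠ v' → Q z q → Q z q' → q ≠ q' →
      FullV P Q v z (v + q - z) (v + q' - z) → FullV Q P q z (q + v - z) (q + v' - z) → False := by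
    intro v q v' q' hv hv' hvv hq hq' hqq f g
    -- at `v`: `z` and `v + q - z` have two `P`-ends
    refine f.two h (fun hall => hvv (hall v' hv').symm) fun hall => ?_
    have g23 := g.q23
    have e : q + v - z = v + q - z := by ring
    rw [e] at g23
    have := hall _ g23
    apply hvv
    have hne := g.n13
    exfalso
    apply hne
    linear_combination -this
  have dich : ∀ {v q q' : ℂ}, P z v → Q z q → Q z q' → q ≠ q' →
      FullV P Q v z (v + q - z) (v + q' - z) ∨ ∀ x, Q (v + q - z) x → x = q := by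
    intro v q q' hv hq hq' hqq
    by_cases hc : ∀ x, Q (v + q - z) x → x = q
    · exact Or.inr hc
    · push Not at hc
      obtain ⟨s, hs, hs1⟩ := hc
      exact Or.inl (h.full_of hv hq hq' hqq hs hs1)
  have dich' : ∀ {q v v' : ℂ}, Q z q → P z v → P z v' → v ≠ v' →
      FullV Q P q z (q + v - z) (q + v' - z) ∨ ∀ x, P (v + q - z) x → x = v := by
    intro q v v' hq hv hv' hvv
    by_cases hc : ∀ x, P (v + q - z) x → x = v
    · exact Or.inr hc
    · push Not at hc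
      obtain ⟨s, hs, hs1⟩ := hc
      have e : v + q - z = q + v - z := by ring
      rw [e] at hs
      exact Or.inl (h.swap.full_of hq hv hv' hvv hs hs1)
  -- a flip of the last two centres
  have flip : ∀ {A B : ℂ → ℂ → Prop} {oo : ℂ → ℂ → ℝ} {v c₁ c₂ c₃ : ℂ}, Web1 A B oo →
      FullV A B v c₁ c₂ c₃ → FullV A B v c₁ c₃ c₂ := by
    intro A B oo v c₁ c₂ c₃ hw f
    refine ⟨f.h1, f.h3, f.h2, f.n13, f.n12, f.n23.symm, f.q13, f.q12, ?_⟩
    rw [add_comm c₃ c₂]
    exact hw.rot f.h2 f.q23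
  by_cases P1 : FullV P Q v₁ z (v₁ + q₁ - z) (v₁ + q₂ - z)
  · left
    refine ⟨P1, ?_⟩
    -- no `Q`-vertex is full
    have R1 : ¬ FullV Q P q₁ z (q₁ + v₁ - z) (q₁ + v₂ - z) := fun g =>
      excl h1 h2 h12 k1 k2 k12 P1 g
    have R2 : ¬ FullV Q P q₂ z (q₂ + v₁ - z) (q₂ + v₂ - z) := fun g =>
      excl h1 h2 h12 k2 k1 k12.symm (flip h P1) g
    rcases dich h2 k1 k2 k12 with f | f
    · exact f
    · rcases dich h2 k2 k1 k12.symm with f' | f'
      · exact flip h f'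
      · exfalso
        have g1 : ∀ x, P (v₂ + q₁ - z) x → x = v₂ := by
          rcases dich' k1 h2 h1 h12.symm with g | g
          · exact (R1 (flip h.swap g)).elim
          · exact g
        have g2 : ∀ x, P (v₂ + q₂ - z) x → x = v₂ := by
          rcases dich' k2 h2 h1 h12.symm with g | g
          · exact (R2 (flip h.swap g)).elim
          · exact g
        exact h.kill h2 k1 k2 k12 g1 f g2 f'
  · right
    -- `v₁` is not full
    have f1 : ∀ x, Q (v₁ + q₁ - z) x → x = q₁ := (dich h1 k1 k2 k12).resolve_left P1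
    have f2 : ∀ x, Q (v₁ + q₂ - z) x → x = q₂ :=
      (dich h1 k2 k1 k12.symm).resolve_left fun g => P1 (flip h g)
    -- one `Q`-vertex is full
    have hR : FullV Q P q₁ z (q₁ + v₁ - z) (q₁ + v₂ - z) ∨
        FullV Q P q₂ z (q₂ + v₁ - z) (q₂ + v₂ - z) := by
      rcases dich' k1 h1 h2 h12 with g | g
      · exact Or.inl g
      · rcases dich' k2 h1 h2 h12 with g' | g'
        · exact Or.inr g'
        · exact (h.kill h1 k1 k2 k12 g f1 g' f2).elim
    -- then `v₂` is not full either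
    have P2 : ¬ FullV P Q v₂ z (v₂ + q₁ - z) (v₂ + q₂ - z) := by
      intro f
      rcases hR with g | g
      · exact excl h2 h1 h12.symm k1 k2 k12 f (flip h.swap g)
      · exact excl h2 h1 h12.symm k2 k1 k12.symm (flip h f) (flip h.swap g)
    have f3 : ∀ x, Q (v₂ + q₁ - z) x → x = q₁ := (dich h2 k1 k2 k12).resolve_left P2
    have f4 : ∀ x, Q (v₂ + q₂ - z) x → x = q₂ :=
      (dich h2 k2 k1 k12.symm).resolve_left fun g => P2 (flip h g)
    -- the kill at the `Q`-vertices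
    have both : ∀ {q : ℂ}, Q z q → (∀ x, Q (v₁ + q - z) x → x = q) →
        (∀ x, Q (v₂ + q - z) x → x = q) → FullV Q P q z (q + v₁ - z) (q + v₂ - z) := by
      intro q hq g g'
      rcases dich' hq h1 h2 h12 with k | k
      · exact k
      · rcases dich' hq h2 h1 h12.symm with k' | k'
        · exact flip h.swap k'
        · exfalso
          refine h.swap.kill hq h1 h2 h12 ?_ ?_ ?_ ?_
          · intro x hx; rw [add_comm q v₁] at hx; exact g x hx
          · intro x hx; rw [add_comm q v₁] at hx; exact k x hx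
          · intro x hx; rw [add_comm q v₂] at hx; exact g' x hx
          · intro x hx; rw [add_comm q v₂] at hx; exact k' x hx
    exact ⟨both k1 f1 f3, both k2 f2 f4⟩

end Vale.Agent.P032.Net
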